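import Vale.Agent.P170.Sat
import Vale.Agent.P170.Defs

/-! Transfer between the i.i.d. literal model and the proper clause model. -/

namespace Vale.Agent.P170

open Finset
open scoped BigOperators

noncomputable section

instance (k n : ℕ) : Fintype (ProperClause k n) := by
  classical exact Subtype.fintype _

/-- assignments satisfying a proper clause -/
def cs (k n : ℕ) (C : ProperClause k n) : Set (Fin n → Bool) := {σ | ∃ l ∈ C.1, σ l.1 = l.2}

lemma satProb_eq (k n m : ℕ) : satProb k n m = (Q (cs k n) ^ m) u Set.univ := by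
  classical
  rw [Q_pow_apply, Fintype.expect_eq_sum_div_card, satProb, Nat.card_eq_fintype_card,
    Nat.card_eq_fintype_card, Fintype.card_subtype]
  congr 1
  rw [card_filter]
  push_cast
  refine sum_congr rfl fun F _ => ?_
  have : (Set.univ ∩ ⋂ i, cs k n (F i)).Nonempty ↔ Satisfiable F := by
    simp [Set.Nonempty, cs, Satisfiable]
  by_cases h : Satisfiable F
  · rw [if_pos h, u_pos (this.2 h)]
  · rw [if_neg h, u_neg (fun h' => h (this.1 h'))]

/-- tuples of literals on distinct variables -/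
def good (k n : ℕ) : Finset (Fin k → Fin n × Bool) := by
  classical exact univ.filter fun c => Function.Injective fun j => (c j).1

lemma mem_good {k n : ℕ} {c : Fin k → Fin n × Bool} :
    c ∈ good k n ↔ Function.Injective fun j => (c j).1 := by simp [good]

lemma card_fiber (k n : ℕ) (C : ProperClause k n) :
    ((good k n).filter fun c => univ.image c = C.1).card = k.factorial := by
  classical
  have h1 : Fintype.card (Fin k ↪ C.1) = k.factorial := by
    rw [Fintype.card_embedding_eq, Fintype.card_coe, C.2.1, Fintype.card_fin,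
      Nat.descFactorial_self]
  rw [← h1, ← card_univ]
  symm
  refine card_bij (fun e _ => fun j => (e j : Fin n × Bool)) ?_ ?_ ?_
  · intro e _
    rw [mem_filter, mem_good]
    constructor
    · intro i j hij
      exact e.injective (Subtype.ext (C.2.2 _ (e i).2 _ (e j).2 hij))
    · refine eq_of_subset_of_card_le ?_ ?_
      · intro l hl
        obtain ⟨j, -, rfl⟩ := mem_image.1 hl
        exact (e j).2
      · rw [card_image_of_injective _ (fun i j hij => e.injective (Subtype.ext hij)), C.2.1]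
        simp
  · intro e _ e' _ h
    ext j : 2
    exact congrFun h j
  · intro c hc
    rw [mem_filter, mem_good] at hc
    refine ⟨⟨fun j => ⟨c j, hc.2 ▸ mem_image_of_mem _ (mem_univ j)⟩, fun i j hij => hc.1 ?_⟩,
      mem_univ _, rfl⟩
    exact congrArg Prod.fst (congrArg Subtype.val hij)

lemma sum_good (k n : ℕ) (f : Finset (Fin n × Bool) → ℝ) :
    ∑ c ∈ good k n, f (univ.image c) = k.factorial * ∑ C : ProperClause k n, f C.1 := by
  classical
  let π : (Fin k → Fin n × Bool) → Finset (Fin n × Bool) := fun c => univ.image c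
  let P : Finset (Finset (Fin n × Bool)) :=
    univ.filter fun C => C.card = k ∧ ∀ l ∈ C, ∀ l' ∈ C, l.1 = l'.1 → l = l'
  have hmap : ∀ c ∈ good k n, π c ∈ P := by
    intro c hc
    rw [mem_good] at hc
    simp only [P, mem_filter, mem_univ, true_and, π]
    constructor
    · rw [card_image_of_injective _ (fun i j hij => hc (congrArg Prod.fst hij))]; simp
    · intro l hl l' hl' h
      obtain ⟨i, -, rfl⟩ := mem_image.1 hl
      obtain ⟨j, -, rfl⟩ := mem_image.1 hl'
      rw [hc h]
  rw [← sum_fiberwise_of_maps_to hmap, mul_sum,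
    sum_subtype P (p := fun C => C.card = k ∧ ∀ l ∈ C, ∀ l' ∈ C, l.1 = l'.1 → l = l')
      (F := inferInstanceAs (Fintype (ProperClause k n))) (by simp [P])]
  refine sum_congr rfl fun C _ => ?_
  rw [sum_congr rfl (g := fun _ => f C.1) fun c hc => by rw [← (mem_filter.1 hc).2], sum_const,
    nsmul_eq_mul, card_fiber k n C]

lemma card_good_ge (k n : ℕ) : (n + 1 - k) ^ k * 2 ^ k ≤ (good k n).card := by
  classical
  have h1 : Fintype.card ((Fin k ↪ Fin n) × (Fin k → Bool)) = n.descFactorial k * 2 ^ k := by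
    simp [Fintype.card_embedding_eq]
  refine le_trans (Nat.mul_le_mul_right _ (Nat.pow_sub_le_descFactorial n k)) ?_
  rw [← h1, ← card_univ]
  refine card_le_card_of_injOn (fun x j => (x.1 j, x.2 j)) ?_ ?_
  · intro x _
    exact mem_coe.2 (mem_good.2 x.1.injective)
  · intro x _ y _ h
    refine Prod.ext ?_ ?_
    · ext j; exact congrArg (fun z => (z.1 : ℕ)) (congrFun h j)
    · funext j; exact congrArg Prod.snd (congrFun h j)

lemma nonempty_proper {k n : ℕ} (h : k ≤ n) : Nonempty (ProperClause k n) := by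
  by_contra hc
  rw [not_nonempty_iff] at hc
  have h1 := sum_good k n fun _ => 1
  have h2 := card_good_ge k n
  simp only [sum_const, nsmul_eq_mul, mul_one, univ_eq_empty, card_empty, Nat.cast_zero,
    mul_zero, Nat.cast_eq_zero] at h1
  have : 0 < (n + 1 - k) ^ k * 2 ^ k := by
    have : 0 < n + 1 - k := by omega
    positivity
  omega

lemma Q_ge_proper {k n : ℕ} [NeZero n] (h : k ≤ n) (f : Set (Fin n → Bool) → ℝ) (hf : 0 ≤ f) :
    (1 - (k : ℝ) ^ 2 / n) • Q (cs k n) f ≤ Q (clause (lit n) k) f := by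
  classical
  intro S
  have := nonempty_proper h
  have hn : (0 : ℝ) < n := by exact_mod_cast NeZero.pos n
  have hP : (0 : ℝ) < Fintype.card (ProperClause k n) := by exact_mod_cast Fintype.card_pos
  have h1 := sum_good k n fun C => f (S ∩ {σ | ∃ l ∈ C, σ l.1 = l.2})
  have h2 := sum_good k n fun _ => 1
  simp only [sum_const, nsmul_eq_mul, mul_one, card_univ] at h2
  have h3 : ∑ c ∈ good k n, f (S ∩ {σ | ∃ l ∈ univ.image c, σ l.1 = l.2}) ≤
      ∑ c, f (S ∩ clause (lit n) k c) := by
    refine le_trans (le_of_eq (sum_congr rfl fun c _ => ?_))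
      (sum_le_sum_of_subset_of_nonneg (subset_univ _) fun c _ _ => hf _)
    congr 2
    ext σ; simp [clause, lit]
  have h4 : (1 - (k : ℝ) ^ 2 / n) * (2 * n) ^ k ≤ (good k n).card := by
    have h5 : (((n + 1 - k) ^ k * 2 ^ k : ℕ) : ℝ) ≤ (good k n).card := by
      exact_mod_cast card_good_ge k n
    refine le_trans ?_ h5
    have h6 : 1 + (k : ℝ) * (-(k / n)) ≤ (1 + -(k / n)) ^ k := one_add_mul_le_pow (by
      have : (k : ℝ) / n ≤ 1 := by rw [div_le_one hn]; exact_mod_cast h
      linarith) k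
    have h7 : ((1 : ℝ) + -(k / n)) * n ≤ ((n + 1 - k : ℕ) : ℝ) := by
      rw [Nat.cast_sub (by omega)]; push_cast; field_simp; linarith
    have h8 : (0 : ℝ) ≤ 1 + -(k / n) := by
      have : (k : ℝ) / n ≤ 1 := by rw [div_le_one hn]; exact_mod_cast h
      linarith
    have h9 := pow_le_pow_left₀ (mul_nonneg h8 hn.le) h7 k
    push_cast
    calc (1 - (k : ℝ) ^ 2 / n) * (2 * n) ^ k = (1 + (k : ℝ) * (-(k / n))) * (2 * n) ^ k := by ring
      _ ≤ (1 + -(k / n)) ^ k * (2 * n) ^ k := mul_le_mul_of_nonneg_right h6 (by positivity)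
      _ = ((1 + -(k / n)) * n) ^ k * 2 ^ k := by simp only [mul_pow]; ring
      _ ≤ _ := mul_le_mul_of_nonneg_right h9 (by positivity)
  have h0 : 0 ≤ ∑ C : ProperClause k n, f (S ∩ cs k n C) := sum_nonneg fun C _ => hf _
  simp only [Pi.smul_apply, smul_eq_mul, Q_apply, Fintype.expect_eq_sum_div_card]
  have hc : (Fintype.card (Fin k → Fin n × Bool) : ℝ) = (2 * n) ^ k := by simp [mul_comm]
  rw [hc, le_div_iff₀ (by positivity)]
  refine le_trans ?_ h3
  rw [h1]
  change _ ≤ (k.factorial : ℝ) * ∑ C : ProperClause k n, f (S ∩ cs k n C)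
  rw [h2] at h4
  calc _ = ((1 - (k : ℝ) ^ 2 / n) * (2 * n) ^ k) *
        ((∑ C : ProperClause k n, f (S ∩ cs k n C)) / Fintype.card (ProperClause k n)) := by ring
    _ ≤ (k.factorial * Fintype.card (ProperClause k n)) *
        ((∑ C : ProperClause k n, f (S ∩ cs k n C)) / Fintype.card (ProperClause k n)) :=
        mul_le_mul_of_nonneg_right h4 (by positivity)
    _ = _ := by field_simp

lemma Q_pow_ge_proper {k n : ℕ} [NeZero n] (h : k ≤ n) (h' : (k : ℝ) ^ 2 / n ≤ 1) (m : ℕ)
    (f : Set (Fin n → Bool) → ℝ) (hf : 0 ≤ f) :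
    (1 - (k : ℝ) ^ 2 / n) ^ m • (Q (cs k n) ^ m) f ≤ (Q (clause (lit n) k) ^ m) f := by
  induction m with
  | zero => simp
  | succ m ih =>
    rw [pow_succ' (Q _), pow_succ' (Q _), Module.End.mul_apply, Module.End.mul_apply, pow_succ',
      mul_smul, ← map_smul]
    refine le_trans (smul_le_smul_of_nonneg_left ((Q_pos _).mono ih) (by linarith)) ?_
    exact Q_ge_proper h _ ((Q_pos _).pow m f hf)

lemma exp_neg_two_le {z : ℝ} (h0 : 0 ≤ z) (h1 : z ≤ 1 / 2) : Real.exp (-(2 * z)) ≤ 1 - z := by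
  rw [Real.exp_neg, inv_le_iff_one_le_mul₀ (Real.exp_pos _)]
  have := Real.add_one_le_exp (2 * z)
  nlinarith

lemma exp_le_one_sub_pow {z L : ℝ} (h0 : 0 ≤ z) (h1 : z ≤ 1 / 2) (m : ℕ) (h : m * z ≤ L) :
    Real.exp (-(2 * L)) ≤ (1 - z) ^ m := by
  refine le_trans ?_ (pow_le_pow_left₀ (Real.exp_pos _).le (exp_neg_two_le h0 h1) m)
  rw [← Real.exp_nat_mul, Real.exp_le_exp]
  linarith

theorem transfer {k n : ℕ} (hk : 1 ≤ k) (hn : 2 * k ^ 2 ≤ n) {c : ℝ} (m : ℕ) (hm : m ≤ c * n) :
    0 ≤ satProb k n m ∧ satProb k n m ≤ 1 ∧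
    Real.exp (-(2 * (c * k ^ 2))) * satProb k n m ≤ pp k n m ∧
    Real.exp (-(2 * (c * k ^ 2))) * (1 - satProb k n m) ≤ 1 - pp k n m := by
  have hkn : k ≤ n := by nlinarith
  have : NeZero n := ⟨by omega⟩
  have := nonempty_proper hkn
  have hn0 : (0 : ℝ) < n := by exact_mod_cast NeZero.pos n
  have hz : (k : ℝ) ^ 2 / n ≤ 1 / 2 := by
    rw [div_le_iff₀ hn0]
    have : ((2 * k ^ 2 : ℕ) : ℝ) ≤ n := by exact_mod_cast hn
    push_cast at this; linarith
  have he := exp_le_one_sub_pow (z := (k : ℝ) ^ 2 / n) (L := c * k ^ 2) (by positivity) hz m (by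
    rw [← mul_div_assoc, div_le_iff₀ hn0]
    have : (0 : ℝ) ≤ (k : ℝ) ^ 2 := by positivity
    nlinarith)
  have a0 : 0 ≤ satProb k n m := by rw [satProb_eq]; exact Q_pow_u_nonneg _ _ _
  have a1 : satProb k n m ≤ 1 := by rw [satProb_eq]; exact Q_pow_u_le_one _ _ _
  refine ⟨a0, a1, ?_, ?_⟩
  · refine le_trans (mul_le_mul_of_nonneg_right he a0) ?_
    rw [satProb_eq]
    exact Q_pow_ge_proper hkn (by linarith) m u u_nonneg Set.univ
  · refine le_trans (mul_le_mul_of_nonneg_right he (by linarith)) ?_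
    have := Q_pow_ge_proper hkn (by linarith) m ((fun _ => 1) - u)
      (fun S => sub_nonneg.2 (u_le_one S)) Set.univ
    rw [map_sub, map_sub, Q_pow_const, Q_pow_const] at this
    rw [satProb_eq]
    exact this

end

end Vale.Agent.P170
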