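import Vale.Agent.P170.Hall
import Vale.Agent.P170.Transfer

/-! From the window bound and interpolation to the limiting threshold. -/

namespace Vale.Agent.P170

open Finset Filter Topology
open scoped BigOperators

noncomputable section

/-- sixth root -/
def sx (n : ℕ) : ℝ := (n : ℝ) ^ (1 / 6 : ℝ)

lemma sx_nonneg (n : ℕ) : 0 ≤ sx n := Real.rpow_nonneg (Nat.cast_nonneg n) _

lemma sx_pow (n : ℕ) : sx n ^ 6 = n := by
  rw [sx, ← Real.rpow_natCast, ← Real.rpow_mul (Nat.cast_nonneg n)]; norm_num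

lemma sx_mono {a b : ℕ} (h : a ≤ b) : sx a ≤ sx b :=
  Real.rpow_le_rpow (Nat.cast_nonneg a) (by exact_mod_cast h) (by norm_num)

lemma one_le_sx {n : ℕ} (h : 1 ≤ n) : 1 ≤ sx n := by simpa [sx] using sx_mono h

lemma sx_tendsto : Tendsto sx atTop atTop :=
  (tendsto_rpow_atTop (by norm_num)).comp tendsto_natCast_atTop_atTop

/-- the constant of the window bound -/
def wA (k : ℕ) (C : ℝ) : ℝ := k * C ^ 2 * (C + 1) ^ 2

lemma wA_nonneg (k : ℕ) (C : ℝ) : 0 ≤ wA k C := by unfold wA; positivity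

lemma window' {k n : ℕ} (hk : 3 ≤ k) (hn : 1 ≤ n) {C η τ : ℝ} (hC : 0 ≤ C) (hη : 0 < η)
    (hτ : 0 < τ) {m b : ℕ} (hb : (b : ℝ) ≤ C * n) (hmb : (m : ℝ) + τ ≤ b) (hp : η ≤ pp k n b) :
    1 - pp k n m ≤ wA k C * sx n ^ 10 / (η * τ ^ 2) := by
  have : NeZero n := ⟨by omega⟩
  have hs := one_le_sx hn
  have hs6 := sx_pow n
  set s := sx n
  have hmb' : m ≤ b := by
    have : (m : ℝ) ≤ b := by linarith
    exact_mod_cast this
  obtain ⟨t, rfl⟩ := Nat.exists_eq_add_of_le hmb'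
  have ht : τ ≤ t := by push_cast at hmb; linarith
  have h := window (n := n) hk (lam := 1 / s ^ 2) (by positivity)
    (by rw [div_le_one (by positivity)]; exact one_le_pow₀ hs) m t
  have h1 : 0 ≤ 1 - pp k n m := sub_nonneg.2 (pp_le_one _ _ _)
  rw [le_div_iff₀ (by positivity)]
  have h2 : (1 - pp k n m) * (η * τ ^ 2) ≤ (t : ℝ) ^ 2 * pp k n (m + t) * (1 - pp k n m) := by
    rw [mul_comm, mul_comm η]
    gcongr
  refine h2.trans (h.trans ?_)
  rw [← hs6] at hb ⊢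
  have h3 : ((m + t : ℕ) : ℝ) * (1 / s ^ 2) ^ 2 + 1 / (1 / s ^ 2) ≤ (C + 1) * s ^ 2 := by
    have : ((m + t : ℕ) : ℝ) * (1 / s ^ 2) ^ 2 ≤ C * s ^ 6 * (1 / s ^ 2) ^ 2 := by gcongr
    have e : C * s ^ 6 * (1 / s ^ 2) ^ 2 = C * s ^ 2 := by field_simp
    rw [one_div_one_div]; linarith
  calc _ ≤ (k : ℝ) / (2 * s ^ 6) * (C * s ^ 6) ^ 2 * ((C + 1) * s ^ 2) ^ 2 := by gcongr
    _ = wA k C * s ^ 10 / 2 := by unfold wA; field_simp
    _ ≤ _ := by have := wA_nonneg k C; have : 0 ≤ wA k C * s ^ 10 := by positivity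
                linarith

lemma interp_one (k n1 n2 m : ℕ) (h1 : 1 ≤ n1) :
    (n1 / (n1 + n2) : ℝ) ^ m * pp k n1 m ≤ pp k (n1 + n2) m := by
  have : NeZero n1 := ⟨by omega⟩
  rcases Nat.eq_zero_or_pos n2 with rfl | h2
  · have : (n1 : ℝ) ≠ 0 := by exact_mod_cast NeZero.ne n1
    simp [this]
  have : NeZero n2 := ⟨by omega⟩
  refine le_trans ?_ (interpolation k n1 n2 m)
  refine le_trans (le_of_eq ?_) (single_le_sum (f := fun j => (m.choose j : ℝ) *
    (n1 / (n1 + n2) : ℝ) ^ j * (n2 / (n1 + n2) : ℝ) ^ (m - j) * (pp k n1 j * pp k n2 (m - j)))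
    (fun j _ => by have := pp_nonneg k n1 j; have := pp_nonneg k n2 (m - j); positivity)
    (self_mem_range_succ m))
  simp [pp_zero]

lemma interp_two (k n1 n2 m : ℕ) (h1 : 1 ≤ n1) (h2 : 1 ≤ n2) {w η : ℝ} (hw : 0 < w) (hη : 0 ≤ η)
    (g1 : ∀ j : ℕ, (j : ℝ) ≤ n1 / (n1 + n2) * m + w → η ≤ pp k n1 j)
    (g2 : ∀ j : ℕ, (j : ℝ) ≤ n2 / (n1 + n2) * m + w → η ≤ pp k n2 j) :
    η ^ 2 * (1 - m / w ^ 2) ≤ pp k (n1 + n2) m := by
  have : NeZero n1 := ⟨by omega⟩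
  have : NeZero n2 := ⟨by omega⟩
  refine le_trans ?_ (interpolation k n1 n2 m)
  have a1 : (0 : ℝ) < n1 := by exact_mod_cast h1
  have a2 : (0 : ℝ) < n2 := by exact_mod_cast h2
  set ρ : ℝ := n1 / (n1 + n2) with hρ
  have e2 : (n2 / (n1 + n2) : ℝ) = 1 - ρ := by rw [hρ]; field_simp; ring
  have r0 : 0 ≤ ρ := by positivity
  have r1 : 0 ≤ 1 - ρ := by rw [← e2]; positivity
  rw [e2] at g2 ⊢
  have s1 : ∑ j ∈ range (m + 1), (m.choose j : ℝ) * ρ ^ j * (1 - ρ) ^ (m - j) = 1 := by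
    have := congrArg (Polynomial.eval ρ) (bernsteinPolynomial.sum ℝ m)
    simpa [bernsteinPolynomial, Polynomial.eval_finsetSum] using this
  have s2 : ∑ j ∈ range (m + 1), (m * ρ - j) ^ 2 * ((m.choose j : ℝ) * ρ ^ j * (1 - ρ) ^ (m - j)) =
      m * ρ * (1 - ρ) := by
    have := congrArg (Polynomial.eval ρ) (bernsteinPolynomial.variance ℝ m)
    simpa [bernsteinPolynomial, Polynomial.eval_finsetSum] using this
  have s3 : ∑ j ∈ range (m + 1), (m.choose j : ℝ) * ρ ^ j * (1 - ρ) ^ (m - j) *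
      (η ^ 2 * (1 - (m * ρ - j) ^ 2 / w ^ 2)) = η ^ 2 * (1 - m * ρ * (1 - ρ) / w ^ 2) := by
    rw [← s2]
    nth_rewrite 3 [← s1]
    rw [sum_div, ← sum_sub_distrib, mul_sum]
    exact sum_congr rfl fun j _ => by ring
  have s4 : η ^ 2 * (1 - m / w ^ 2) ≤ η ^ 2 * (1 - m * ρ * (1 - ρ) / w ^ 2) := by
    have : (m : ℝ) * ρ * (1 - ρ) ≤ m := by
      rw [mul_assoc]; exact mul_le_of_le_one_right (by positivity) (by nlinarith)
    gcongr
  refine s4.trans (s3 ▸ sum_le_sum fun j hj => ?_)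
  refine mul_le_mul_of_nonneg_left ?_ (by positivity)
  have hj' : j ≤ m := Nat.lt_succ_iff.1 (mem_range.1 hj)
  have n1' := pp_nonneg k n1 j
  have n2' := pp_nonneg k n2 (m - j)
  by_cases hc : |m * ρ - j| ≤ w
  · rw [abs_le] at hc
    have b1 := g1 j (by linarith)
    have b2 := g2 (m - j) (by rw [Nat.cast_sub hj']; linarith)
    have : 0 ≤ η ^ 2 * ((m * ρ - j) ^ 2 / w ^ 2) := by positivity
    have := mul_le_mul b1 b2 hη n1'
    nlinarith
  · push Not at hc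
    have : 1 ≤ (m * ρ - j) ^ 2 / w ^ 2 := by
      rw [le_div_iff₀ (by positivity), one_mul, ← sq_abs (m * ρ - j)]
      exact pow_le_pow_left₀ hw.le hc.le 2
    have : η ^ 2 * (1 - (m * ρ - j) ^ 2 / w ^ 2) ≤ 0 :=
      mul_nonpos_of_nonneg_of_nonpos (by positivity) (by linarith)
    have := mul_nonneg n1' n2'
    linarith

/-- satisfiable with probability at least `3/4` up to density `x` -/
def Good (k n : ℕ) (x : ℝ) : Prop := ∀ m : ℕ, (m : ℝ) ≤ x * n → 3 / 4 ≤ pp k n m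

lemma Good.mono {k n : ℕ} {x y : ℝ} (h : Good k n x) (hy : y ≤ x) : Good k n y := fun m hm =>
  h m (hm.trans (mul_le_mul_of_nonneg_right hy (Nat.cast_nonneg n)))

lemma combine {k : ℕ} (hk : 3 ≤ k) {C : ℝ} (hC : 1 ≤ C) : ∃ B > 0, ∀ (n1 n2 : ℕ) (x : ℝ),
    1 ≤ n1 → 1 ≤ n2 → n1 + n2 ≤ 3 * n1 → n1 + n2 ≤ 3 * n2 → x ≤ C → Good k n1 x → Good k n2 x →
    Good k (n1 + n2) (x - B / sx (n1 + n2)) := by
  have hA := wA_nonneg k C
  set B1 : ℝ := 8 * wA k C + 1 with hB1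
  set B2 : ℝ := 10 * C with hB2
  refine ⟨B1 + 1 + 3 * B2, by positivity, ?_⟩
  intro n1 n2 x h1 h2 h3 h4 hx g1 g2 m hm
  have hs := one_le_sx (n := n1 + n2) (by omega)
  have hs6 := sx_pow (n1 + n2)
  set s := sx (n1 + n2)
  have a1 : (0 : ℝ) < n1 := by exact_mod_cast h1
  have a2 : (0 : ℝ) < n2 := by exact_mod_cast h2
  have s5 : 1 ≤ s ^ 5 := one_le_pow₀ hs
  have hm' : (m : ℝ) ≤ x * (n1 + n2) - (B1 + 1 + 3 * B2) * s ^ 5 := by
    refine hm.trans (le_of_eq ?_)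
    push_cast at hs6 ⊢
    rw [sub_mul, ← hs6]; field_simp
  set t := ⌈B1 * s ^ 5⌉₊ with ht
  have t1 : B1 * s ^ 5 ≤ t := Nat.le_ceil _
  have t2 : (t : ℝ) ≤ (B1 + 1) * s ^ 5 := by
    have := Nat.ceil_lt_add_one (a := B1 * s ^ 5) (by positivity)
    linarith
  have hmt : ((m + t : ℕ) : ℝ) ≤ x * (n1 + n2) - 3 * B2 * s ^ 5 := by push_cast; linarith
  have hB2s : 0 < B2 * s ^ 5 := by positivity
  have hmC : ((m + t : ℕ) : ℝ) ≤ C * ((n1 + n2 : ℕ) : ℝ) := by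
    have : x * (n1 + n2) ≤ C * (n1 + n2) := by gcongr
    push_cast at hmt ⊢; linarith
  have key : ∀ a : ℕ, 0 < (a : ℝ) → n1 + n2 ≤ 3 * a → Good k a x → ∀ j : ℕ,
      (j : ℝ) ≤ a / (n1 + n2) * ((m + t : ℕ) : ℝ) + B2 * s ^ 5 → 3 / 4 ≤ pp k a j := by
    intro a a0 ha g j hj
    refine g j (hj.trans ?_)
    have ha' : (1 / 3 : ℝ) ≤ a / (n1 + n2) := by
      rw [le_div_iff₀ (by positivity)]
      have : ((n1 + n2 : ℕ) : ℝ) ≤ ((3 * a : ℕ) : ℝ) := by exact_mod_cast ha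
      push_cast at this; linarith
    have e : (a : ℝ) / (n1 + n2) * (x * (n1 + n2)) = x * a := by field_simp
    have := mul_le_mul_of_nonneg_left hmt (by positivity : (0 : ℝ) ≤ a / (n1 + n2))
    nlinarith
  have h5 := interp_two k n1 n2 (m + t) h1 h2 hB2s (by norm_num) (key n1 a1 h3 g1)
    (key n2 a2 h4 g2)
  have h6 : ((m + t : ℕ) : ℝ) / (B2 * s ^ 5) ^ 2 ≤ 1 / 10 := by
    rw [div_le_iff₀ (by positivity)]
    refine hmC.trans ?_
    rw [← hs6, hB2]
    have : s ^ 6 ≤ s ^ 10 := pow_le_pow_right₀ hs (by norm_num)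
    have : C * s ^ 6 ≤ C ^ 2 * s ^ 10 := by
      have : C ≤ C ^ 2 := by nlinarith
      gcongr
    have : 0 ≤ C ^ 2 * s ^ 10 := by positivity
    nlinarith
  have h7 : 1 / 2 ≤ pp k (n1 + n2) (m + t) := by linarith
  have h8 := window' hk (n := n1 + n2) (by omega) (C := C) (by linarith) (by norm_num)
    (τ := B1 * s ^ 5) (by positivity) (m := m) hmC (by push_cast; linarith) h7
  have h9 : wA k C * s ^ 10 / (1 / 2 * (B1 * s ^ 5) ^ 2) ≤ 1 / 4 := by
    rw [div_le_iff₀ (by positivity)]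
    have : 8 * wA k C ≤ B1 ^ 2 := by nlinarith
    have := mul_le_mul_of_nonneg_right this (by positivity : 0 ≤ s ^ 10)
    nlinarith
  linarith

lemma multiples {k : ℕ} (hk : 3 ≤ k) {C : ℝ} (hC : 1 ≤ C) : ∃ B > 0, ∀ (n0 : ℕ) (x : ℝ),
    1 ≤ n0 → x ≤ C → Good k n0 x → ∀ q, 1 ≤ q → Good k (q * n0) (x - B / sx n0) := by
  obtain ⟨B, hB, hc⟩ := combine hk hC
  refine ⟨20 * B, by positivity, fun n0 x h0 hx g => ?_⟩
  have main : ∀ q, 1 ≤ q → Good k (q * n0) (x - 20 * B / sx n0 + 20 * B / sx (q * n0)) := by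
    intro q
    induction q using Nat.strong_induction_on with
    | _ q ih =>
      intro hq
      rcases eq_or_lt_of_le hq with rfl | hq'
      · simpa using g
      set q1 := q / 2
      set q2 := q - q / 2
      have e : q * n0 = q1 * n0 + q2 * n0 := by rw [← add_mul]; congr 1; omega
      have g1 := ih q1 (by omega) (by omega)
      have g2 := ih q2 (by omega) (by omega)
      have p1 : 1 ≤ q1 * n0 := Nat.mul_pos (by omega) h0
      have p2 : 1 ≤ q2 * n0 := Nat.mul_pos (by omega) h0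
      have s0 := one_le_sx h0
      have s1 := one_le_sx p1
      have s2 := one_le_sx p2
      have s3 := one_le_sx (n := q * n0) (by omega)
      have m12 : sx (q1 * n0) ≤ sx (q2 * n0) := sx_mono (Nat.mul_le_mul_right _ (by omega))
      have m02 : sx n0 ≤ sx (q2 * n0) := sx_mono (Nat.le_mul_of_pos_left _ (by omega))
      have d12 : 20 * B / sx (q2 * n0) ≤ 20 * B / sx (q1 * n0) := by gcongr
      have d02 : 20 * B / sx (q2 * n0) ≤ 20 * B / sx n0 := by gcongr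
      have h := hc (q1 * n0) (q2 * n0) (x - 20 * B / sx n0 + 20 * B / sx (q2 * n0)) p1 p2
        (by rw [← add_mul, ← mul_assoc]; exact Nat.mul_le_mul_right _ (by omega))
        (by rw [← add_mul, ← mul_assoc]; exact Nat.mul_le_mul_right _ (by omega))
        (by linarith) (g1.mono (by linarith)) g2
      rw [← e] at h
      refine h.mono ?_
      have k1 : 21 * sx (q2 * n0) ≤ 20 * sx (q * n0) := by
        refine le_of_pow_le_pow_left₀ (n := 6) (by norm_num) (by positivity) ?_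
        rw [mul_pow, mul_pow, sx_pow, sx_pow]
        have : ((3 * (q2 * n0) : ℕ) : ℝ) ≤ ((2 * (q * n0) : ℕ) : ℝ) := by
          exact_mod_cast (by rw [← mul_assoc, ← mul_assoc]; exact Nat.mul_le_mul_right _ (by omega))
        have h' : (0 : ℝ) ≤ ((q * n0 : ℕ) : ℝ) := Nat.cast_nonneg _
        push_cast at this h' ⊢
        linarith
      have k2 : 21 * B / sx (q * n0) ≤ 20 * B / sx (q2 * n0) := by
        rw [div_le_div_iff₀ (by positivity) (by positivity)]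
        nlinarith
      have e2 : 21 * B / sx (q * n0) = 20 * B / sx (q * n0) + B / sx (q * n0) := by ring
      linarith
  intro q hq
  refine (main q hq).mono ?_
  have := sx_nonneg (q * n0)
  have : 0 ≤ 20 * B / sx (q * n0) := by positivity
  linarith

lemma tendsto_one_of_good {k : ℕ} (hk : 3 ≤ k) {c c2 : ℝ} (hc : 0 ≤ c) (hc2 : c < c2) {n0 : ℕ}
    (h0 : 1 ≤ n0) (g : ∀ q, 1 ≤ q → Good k (q * n0) c2) :
    Tendsto (fun n : ℕ => pp k n ⌊c * n⌋₊) atTop (𝓝 1) := by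
  set κ : ℝ := Real.exp (-(2 * (c2 * n0))) * (3 / 4) with hκ
  have κ0 : 0 < κ := by positivity
  set e : ℝ := (c2 - c) / 2 with he
  have e0 : 0 < e := by rw [he]; linarith
  have hlim : Tendsto (fun n : ℕ => 1 - wA k c2 / (κ * e ^ 2) / sx n) atTop (𝓝 1) := by
    simpa using (tendsto_const_nhds (x := (1 : ℝ))).sub
      ((tendsto_const_nhds (x := wA k c2 / (κ * e ^ 2))).div_atTop sx_tendsto)
  refine tendsto_of_tendsto_of_tendsto_of_le_of_le' hlim tendsto_const_nhds ?_ ?_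
  swap
  · filter_upwards [eventually_ge_atTop 1] with n hn
    have : NeZero n := ⟨by omega⟩
    exact pp_le_one _ _ _
  have ev1 : ∀ᶠ n : ℕ in atTop, (c2 * n0 + 1) / e ≤ n :=
    tendsto_natCast_atTop_atTop.eventually_ge_atTop _
  filter_upwards [ev1, eventually_ge_atTop (2 * n0)] with N hN1 hN2
  set q := N / n0
  set r := N % n0
  have hr : r < n0 := Nat.mod_lt _ h0
  have hN : N = q * n0 + r := by rw [mul_comm]; exact (Nat.div_add_mod N n0).symm
  have hq : 1 ≤ q := (Nat.le_div_iff_mul_le h0).2 (by omega)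
  have hN' : (N : ℝ) = (q * n0 : ℕ) + r := by exact_mod_cast hN
  have N0 : (0 : ℝ) < N := by exact_mod_cast (by omega : 0 < N)
  have r' : (r : ℝ) ≤ n0 := by exact_mod_cast hr.le
  have r0 : (0 : ℝ) ≤ r := Nat.cast_nonneg _
  have N2 : 2 * (n0 : ℝ) ≤ N := by exact_mod_cast hN2
  have c20 : 0 < c2 := by linarith
  set b := ⌊c2 * (q * n0 : ℕ)⌋₊ with hb
  have b1 : (b : ℝ) ≤ c2 * (q * n0 : ℕ) := Nat.floor_le (by positivity)
  have b2 : c2 * (q * n0 : ℕ) < b + 1 := Nat.lt_floor_add_one _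
  have b3 : (b : ℝ) ≤ c2 * N := by
    refine b1.trans (mul_le_mul_of_nonneg_left ?_ c20.le)
    linarith
  have h1 := g q hq b b1
  have h2 := interp_one k (q * n0) r b (Nat.mul_pos hq h0)
  rw [← hN, ← hN'] at h2
  have h3 : Real.exp (-(2 * (c2 * n0))) ≤ (((q * n0 : ℕ) : ℝ) / N) ^ b := by
    have e1 : ((q * n0 : ℕ) : ℝ) / N = 1 - r / N := by field_simp; linarith
    rw [e1]
    refine exp_le_one_sub_pow (by positivity) (by rw [div_le_iff₀ N0]; linarith) b ?_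
    rw [← mul_div_assoc, div_le_iff₀ N0]
    calc (b : ℝ) * r ≤ c2 * N * n0 := by gcongr
      _ = _ := by ring
  have h4 : κ ≤ pp k N b := le_trans (mul_le_mul h3 h1 (by norm_num) (by positivity)) h2
  have m1 : (⌊c * N⌋₊ : ℝ) ≤ c * N := Nat.floor_le (by positivity)
  have h5 := window' hk (n := N) (by omega) c20.le κ0 (τ := e * N) (by positivity)
    (m := ⌊c * N⌋₊) b3 (by
      rw [div_le_iff₀ e0] at hN1
      have : c2 * N = c * N + 2 * (e * N) := by rw [he]; ring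
      have : c2 * N = c2 * (q * n0 : ℕ) + c2 * r := by rw [hN']; ring
      have : c2 * r ≤ c2 * n0 := by gcongr
      linarith) h4
  have hs := one_le_sx (n := N) (by omega)
  have hs6 := sx_pow N
  have h6 : wA k c2 * sx N ^ 10 / (κ * (e * N) ^ 2) ≤ wA k c2 / (κ * e ^ 2) / sx N := by
    rw [← hs6]
    have := wA_nonneg k c2
    have e1 : wA k c2 * sx N ^ 10 / (κ * (e * sx N ^ 6) ^ 2) =
        wA k c2 / (κ * e ^ 2) / sx N ^ 2 := by field_simp
    rw [e1]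
    gcongr
    nlinarith
  linarith

lemma tendsto_zero_large {k : ℕ} : ∃ L : ℕ, 1 ≤ L ∧
    Tendsto (fun n : ℕ => pp k n ⌊(L : ℝ) * n⌋₊) atTop (𝓝 0) := by
  obtain ⟨L, hL⟩ := exists_pow_lt_of_lt_one (x := (1 / 4 : ℝ)) (y := 1 - (1 / 2) ^ k)
    (by norm_num) (by have : (0 : ℝ) < (1 / 2) ^ k := by positivity
                      linarith)
  have y0 : (0 : ℝ) ≤ 1 - (1 / 2) ^ k := sub_nonneg.2 (pow_le_one₀ (by norm_num) (by norm_num))
  refine ⟨L, ?_, ?_⟩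
  · rcases Nat.eq_zero_or_pos L with rfl | h
    · norm_num at hL
    · exact h
  refine tendsto_of_tendsto_of_tendsto_of_le_of_le' tendsto_const_nhds
    (tendsto_pow_atTop_nhds_zero_of_lt_one (r := (1 / 2 : ℝ)) (by norm_num) (by norm_num))
    (Eventually.of_forall fun n => pp_nonneg _ _ _) ?_
  filter_upwards [eventually_ge_atTop 1] with n hn
  have : NeZero n := ⟨by omega⟩
  have e : ⌊(L : ℝ) * n⌋₊ = L * n := by rw [← Nat.cast_mul, Nat.floor_natCast]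
  rw [e]
  refine (first_moment k n _).trans ?_
  rw [pow_mul, ← mul_pow]
  exact pow_le_pow_left₀ (by positivity) (by linarith) n

theorem threshold_iid {k : ℕ} (hk : 3 ≤ k) : ∃ α : ℝ, 0 < α ∧
    (∀ c, 0 ≤ c → c < α → Tendsto (fun n : ℕ => pp k n ⌊c * n⌋₊) atTop (𝓝 1)) ∧
    (∀ c, α < c → Tendsto (fun n : ℕ => pp k n ⌊c * n⌋₊) atTop (𝓝 0)) := by
  let Z : Set ℝ := {c | Tendsto (fun n : ℕ => pp k n ⌊c * n⌋₊) atTop (𝓝 0)}
  have up : ∀ c ∈ Z, ∀ c', c ≤ c' → c' ∈ Z := by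
    intro c hc c' h
    refine tendsto_of_tendsto_of_tendsto_of_le_of_le' tendsto_const_nhds hc
      (Eventually.of_forall fun n => pp_nonneg _ _ _) ?_
    filter_upwards [eventually_ge_atTop 1] with n hn
    have : NeZero n := ⟨by omega⟩
    exact pp_anti k n (Nat.floor_mono (mul_le_mul_of_nonneg_right h (Nat.cast_nonneg n)))
  obtain ⟨L, hL1, hL⟩ := tendsto_zero_large (k := k)
  have hLZ : (L : ℝ) ∈ Z := hL
  have low : (1 / 30 : ℝ) ∉ Z := by
    intro h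
    have := ge_of_tendsto h (b := 1 / 2) (by
      filter_upwards [eventually_ge_atTop 1] with n hn
      have : NeZero n := ⟨by omega⟩
      refine hall_bound (by omega) ?_
      have h1 : (⌊(1 / 30 : ℝ) * n⌋₊ : ℝ) ≤ 1 / 30 * n := Nat.floor_le (by positivity)
      have : ((30 * ⌊(1 / 30 : ℝ) * n⌋₊ : ℕ) : ℝ) ≤ n := by push_cast; linarith
      exact_mod_cast this)
    norm_num at this
  have lb : (1 / 30 : ℝ) ∈ lowerBounds Z := fun c hc =>
    le_of_not_gt fun h => low (up c hc _ h.le)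
  have bdd : BddBelow Z := ⟨_, lb⟩
  refine ⟨sInf Z, lt_of_lt_of_le (by norm_num) (le_csInf ⟨_, hLZ⟩ lb), ?_, ?_⟩
  swap
  · intro c hc
    obtain ⟨c', h1, h2⟩ := exists_lt_of_csInf_lt ⟨_, hLZ⟩ hc
    exact up c' h1 c h2.le
  intro c hc0 hc
  have hαL : sInf Z ≤ L := csInf_le bdd hLZ
  have hL1' : (1 : ℝ) ≤ L := by exact_mod_cast hL1
  set δ : ℝ := (sInf Z - c) / 4 with hδ
  have δ0 : 0 < δ := by rw [hδ]; linarith
  have h1 : c + 3 * δ ∉ Z := fun h => by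
    have := csInf_le bdd h
    rw [hδ] at this; linarith
  have h2 : ∃ η > 0, ∃ᶠ n : ℕ in atTop, η ≤ pp k n ⌊(c + 3 * δ) * n⌋₊ := by
    by_contra hcon
    push Not at hcon
    refine h1 (tendsto_order.2 ⟨fun a ha => Eventually.of_forall fun n =>
      lt_of_lt_of_le ha (pp_nonneg _ _ _), fun a ha => hcon a ha⟩)
  obtain ⟨η, η0, hη⟩ := h2
  obtain ⟨B, hB, hmul⟩ := multiples hk hL1'
  have ev1 : ∀ᶠ n : ℕ in atTop, B / δ ≤ sx n := sx_tendsto.eventually_ge_atTop _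
  have ev2 : ∀ᶠ n : ℕ in atTop, 16 * wA k L / (η * δ ^ 2) ≤ sx n := sx_tendsto.eventually_ge_atTop _
  have ev3 : ∀ᶠ n : ℕ in atTop, 2 / δ ≤ n := tendsto_natCast_atTop_atTop.eventually_ge_atTop _
  obtain ⟨n0, a0, a1, a2, a3, a4⟩ :=
    (hη.and_eventually (ev1.and (ev2.and (ev3.and (eventually_ge_atTop 1))))).exists
  have hs := one_le_sx a4
  have hs6 := sx_pow n0
  have n00 : (0 : ℝ) < n0 := by exact_mod_cast a4
  have hcL : c + 3 * δ ≤ L := by rw [hδ]; linarith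
  have g : Good k n0 (c + 2 * δ) := by
    intro m hm
    have b1 : (⌊(c + 3 * δ) * n0⌋₊ : ℝ) ≤ (c + 3 * δ) * n0 := Nat.floor_le (by positivity)
    have b2 : (c + 3 * δ) * n0 < ⌊(c + 3 * δ) * n0⌋₊ + 1 := Nat.lt_floor_add_one _
    rw [div_le_iff₀ δ0] at a3
    have h5 := window' hk a4 (C := L) (by linarith) η0 (τ := δ / 2 * n0) (by positivity) (m := m)
      (b1.trans (by gcongr)) (by nlinarith) a0
    have h6 : wA k L * sx n0 ^ 10 / (η * (δ / 2 * n0) ^ 2) ≤ 1 / 4 := by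
      rw [← hs6]
      have e1 : wA k L * sx n0 ^ 10 / (η * (δ / 2 * sx n0 ^ 6) ^ 2) =
          16 * wA k L / (η * δ ^ 2) / (4 * sx n0 ^ 2) := by field_simp; ring
      rw [e1, div_le_iff₀ (by positivity)]
      nlinarith
    linarith
  refine tendsto_one_of_good hk hc0 (c2 := c + δ) (by linarith) a4 fun q hq => ?_
  refine (hmul n0 _ a4 (by linarith) g q hq).mono ?_
  have : B / sx n0 ≤ δ := by
    rw [div_le_iff₀ δ0] at a1
    rw [div_le_iff₀ (by linarith)]; linarith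
  linarith

theorem threshold {k : ℕ} (hk : 3 ≤ k) : ∃ α : ℝ, 0 < α ∧
    (∀ c, 0 ≤ c → c < α → Tendsto (fun n : ℕ => satProb k n ⌊c * n⌋₊) atTop (𝓝 1)) ∧
    (∀ c, α < c → Tendsto (fun n : ℕ => satProb k n ⌊c * n⌋₊) atTop (𝓝 0)) := by
  obtain ⟨α, h0, h1, h2⟩ := threshold_iid hk
  have tr : ∀ c : ℝ, 0 ≤ c → ∀ᶠ n : ℕ in atTop, 0 ≤ satProb k n ⌊c * n⌋₊ ∧
      satProb k n ⌊c * n⌋₊ ≤ 1 ∧
      Real.exp (-(2 * (c * k ^ 2))) * satProb k n ⌊c * n⌋₊ ≤ pp k n ⌊c * n⌋₊ ∧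
      Real.exp (-(2 * (c * k ^ 2))) * (1 - satProb k n ⌊c * n⌋₊) ≤ 1 - pp k n ⌊c * n⌋₊ := by
    intro c hc
    filter_upwards [eventually_ge_atTop (2 * k ^ 2)] with n hn
    exact transfer (by omega) hn _ (Nat.floor_le (by positivity))
  refine ⟨α, h0, fun c hc hc' => ?_, fun c hc => ?_⟩
  · set κ := Real.exp (-(2 * (c * k ^ 2)))
    have κ0 : 0 < κ := Real.exp_pos _
    have hlim : Tendsto (fun n : ℕ => 1 - (1 - pp k n ⌊c * n⌋₊) / κ) atTop (𝓝 1) := by
      simpa using (tendsto_const_nhds (x := (1 : ℝ))).sub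
        (((tendsto_const_nhds (x := (1 : ℝ))).sub (h1 c hc hc')).div_const κ)
    refine tendsto_of_tendsto_of_tendsto_of_le_of_le' hlim tendsto_const_nhds ?_ ?_
    · filter_upwards [tr c hc] with n hn
      have : 1 - satProb k n ⌊c * n⌋₊ ≤ (1 - pp k n ⌊c * n⌋₊) / κ := by
        rw [le_div_iff₀ κ0, mul_comm]; exact hn.2.2.2
      linarith
    · filter_upwards [tr c hc] with n hn using hn.2.1
  · set κ := Real.exp (-(2 * (c * k ^ 2)))
    have κ0 : 0 < κ := Real.exp_pos _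
    have hlim : Tendsto (fun n : ℕ => pp k n ⌊c * n⌋₊ / κ) atTop (𝓝 0) := by
      simpa using (h2 c hc).div_const κ
    refine tendsto_of_tendsto_of_tendsto_of_le_of_le' tendsto_const_nhds hlim ?_ ?_
    · filter_upwards [tr c (by linarith)] with n hn using hn.1
    · filter_upwards [tr c (by linarith)] with n hn
      rw [le_div_iff₀ κ0, mul_comm]; exact hn.2.2.1

end

end Vale.Agent.P170
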