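import Vale.Agent.P170.Sat

/-! Lower bound at small density through Hall's theorem. -/

namespace Vale.Agent.P170

open Finset
open scoped BigOperators

noncomputable section

lemma expect_prod_pi {ι Γ : Type*} [Fintype ι] [DecidableEq ι] [Fintype Γ] (f : ι → Γ → ℝ) :
    𝔼 F : ι → Γ, ∏ i, f i (F i) = ∏ i, 𝔼 γ, f i γ := by
  simp only [Fintype.expect_eq_sum_div_card, prod_div_distrib, prod_univ_sum,
    Fintype.piFinset_univ, Fintype.card_pi]
  simp

lemma hall_term {k n m t : ℕ} (hk : 2 ≤ k) (hn : 0 < n) (hm : 30 * m ≤ n) (ht : t ≤ n) :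
    (m.choose (t + 1) : ℝ) * ((n.choose t : ℝ) * (((t : ℝ) / n) ^ k) ^ (t + 1)) ≤
      (1 / 4) ^ (t + 1) := by
  have hn' : (0 : ℝ) < n := by exact_mod_cast hn
  have q0 : (0 : ℝ) ≤ t / n := by positivity
  have q1 : (t : ℝ) / n ≤ 1 := by rw [div_le_one hn']; exact_mod_cast ht
  have h1 : (m.choose (t + 1) : ℝ) ≤ (n / 30) ^ (t + 1) / (t + 1).factorial := by
    refine (Nat.choose_le_pow_div _ _).trans ?_
    gcongr
    rw [le_div_iff₀ (by norm_num)]
    have : ((30 * m : ℕ) : ℝ) ≤ n := by exact_mod_cast hm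
    push_cast at this; linarith
  have h2 : (n.choose t : ℝ) ≤ n ^ t / t.factorial := Nat.choose_le_pow_div _ _
  have h3 : (((t : ℝ) / n) ^ k) ^ (t + 1) ≤ (((t : ℝ) / n) ^ 2) ^ (t + 1) :=
    pow_le_pow_left₀ (by positivity) (pow_le_pow_of_le_one q0 q1 hk) _
  have h4 := Real.pow_div_factorial_le_exp (t : ℝ) (by positivity) (t + 1)
  have h5 := Real.pow_div_factorial_le_exp (t : ℝ) (by positivity) t
  have h6 : Real.exp t * Real.exp t ≤ (15 / 2) ^ (t + 1) := by
    have e1 : Real.exp t = Real.exp 1 ^ t := by rw [← Real.exp_nat_mul]; simp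
    have e2 : Real.exp 1 * Real.exp 1 ≤ 15 / 2 := by
      have := Real.exp_one_lt_d9
      have := Real.exp_pos 1
      nlinarith
    rw [e1, ← mul_pow, pow_succ]
    have := pow_le_pow_left₀ (by positivity) e2 t
    have : (0 : ℝ) ≤ (15 / 2) ^ t := by positivity
    linarith
  calc _ ≤ ((n / 30) ^ (t + 1) / (t + 1).factorial : ℝ) * ((n ^ t / t.factorial) *
          (((t : ℝ) / n) ^ 2) ^ (t + 1)) := by gcongr
    _ = (1 / 30) ^ (t + 1) * (((t : ℝ) ^ (t + 1) / (t + 1).factorial) *
          ((t : ℝ) ^ t / t.factorial)) * (t / n) := by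
        simp only [div_pow, one_pow, ← pow_mul]
        field_simp
        ring
    _ ≤ (1 / 30) ^ (t + 1) * (15 / 2) ^ (t + 1) * 1 := by
        gcongr
        exact (mul_le_mul h4 h5 (by positivity) (by positivity)).trans h6
    _ = _ := by rw [← mul_pow]; norm_num

theorem hall_bound {k n m : ℕ} [NeZero n] (hk : 2 ≤ k) (hm : 30 * m ≤ n) :
    1 / 2 ≤ pp k n m := by
  classical
  have hn : 0 < n := NeZero.pos n
  have hn' : (0 : ℝ) < n := by exact_mod_cast hn
  let χ : Finset (Fin n) → (Fin k → Fin n × Bool) → ℝ :=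
    fun Y c => ∏ j, if (c j).1 ∈ Y then 1 else 0
  have χ0 : ∀ Y c, 0 ≤ χ Y c := fun Y c => prod_nonneg fun j _ => by split_ifs <;> simp
  have hχ : ∀ Y, 𝔼 c, χ Y c = ((Y.card : ℝ) / n) ^ k := by
    intro Y
    rw [expect_prod_pi (fun (_ : Fin k) (l : Fin n × Bool) => if l.1 ∈ Y then (1 : ℝ) else 0)]
    rw [prod_const, card_univ, Fintype.card_fin]
    congr 1
    rw [Fintype.expect_eq_sum_div_card, Fintype.sum_prod_type_right]
    simp
    field_simp
  let B : Finset (Fin m) → (Fin m → Fin k → Fin n × Bool) → ℝ := fun T F =>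
    if T.card = 0 then 0 else ∑ Y ∈ powersetCard (T.card - 1) univ, ∏ i ∈ T, χ Y (F i)
  have B0 : ∀ T F, 0 ≤ B T F := fun T F => by
    simp only [B]
    split_ifs
    · exact le_rfl
    · exact sum_nonneg fun Y _ => prod_nonneg fun i _ => χ0 _ _
  have hpt : ∀ F : Fin m → Fin k → Fin n × Bool,
      1 - u (Set.univ ∩ ⋂ i, clause (lit n) k (F i)) ≤ ∑ T ∈ univ.powerset, B T F := by
    intro F
    let vars : Fin m → Finset (Fin n) := fun i => univ.image fun j => (F i j).1
    by_cases hall : ∀ s : Finset (Fin m), s.card ≤ (s.biUnion vars).card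
    · obtain ⟨f, hf, hfv⟩ := (all_card_le_biUnion_card_iff_exists_injective vars).1 hall
      have : ∀ i, ∃ j, (F i j).1 = f i := fun i => by simpa [vars] using hfv i
      choose jj hjj using this
      rw [u_pos, sub_self]
      · exact sum_nonneg fun T _ => B0 T F
      · refine ⟨fun x => if h : ∃ i, f i = x then (F h.choose (jj h.choose)).2 else true,
          trivial, Set.mem_iInter.2 fun i => Set.mem_iUnion.2 ⟨jj i, ?_⟩⟩
        have h : ∃ i', f i' = (F i (jj i)).1 := ⟨i, (hjj i).symm⟩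
        have e : h.choose = i := hf (h.choose_spec.trans (hjj i))
        simp only [lit, Set.mem_ofPred_eq, dif_pos h, e]
    · push Not at hall
      obtain ⟨T, hT⟩ := hall
      have hTm : T.card ≤ m := by simpa using card_le_univ T
      obtain ⟨Y, hY1, -, hY3⟩ := exists_subsuperset_card_eq (subset_univ (T.biUnion vars))
        (n := T.card - 1) (by omega) (by simp; omega)
      refine le_trans ?_ (single_le_sum (f := fun T => B T F) (fun T _ => B0 T F)
        (mem_powerset.2 (subset_univ T)))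
      simp only [B]
      rw [if_neg (by omega)]
      refine le_trans ?_ (single_le_sum (f := fun Y => ∏ i ∈ T, χ Y (F i))
        (fun Y _ => prod_nonneg fun i _ => χ0 _ _) (mem_powersetCard.2 ⟨subset_univ Y, hY3⟩))
      rw [prod_eq_one]
      · linarith [u_nonneg (Set.univ ∩ ⋂ i, clause (lit n) k (F i))]
      · intro i hi
        refine prod_eq_one fun j _ => if_pos (hY1 ?_)
        exact mem_biUnion.2 ⟨i, hi, mem_image.2 ⟨j, mem_univ _, rfl⟩⟩
  let φ : ℕ → ℝ := fun s =>
    if s = 0 then 0 else (n.choose (s - 1) : ℝ) * ((((s - 1 : ℕ) : ℝ) / n) ^ k) ^ s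
  have hB : ∀ T, 𝔼 F, B T F = φ T.card := by
    intro T
    simp only [B, φ]
    split_ifs with h
    · simp
    · rw [expect_sum_comm]
      have : ∀ Y ∈ powersetCard (T.card - 1) (univ : Finset (Fin n)),
          𝔼 F : Fin m → Fin k → Fin n × Bool, ∏ i ∈ T, χ Y (F i) =
            ((((T.card - 1 : ℕ) : ℝ) / n) ^ k) ^ T.card := by
        intro Y hY
        have e : ∀ F : Fin m → Fin k → Fin n × Bool,
            ∏ i ∈ T, χ Y (F i) = ∏ i, if i ∈ T then χ Y (F i) else 1 := fun F => by
          simp [prod_ite_mem]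
        simp only [e]
        rw [expect_prod_pi (fun i c => if i ∈ T then χ Y c else 1)]
        have : ∀ i : Fin m, 𝔼 c, (if i ∈ T then χ Y c else 1) =
            if i ∈ T then (((T.card - 1 : ℕ) : ℝ) / n) ^ k else 1 := by
          intro i
          split_ifs
          · rw [hχ, (mem_powersetCard.1 hY).2]
          · simp
        simp [this, prod_ite_mem]
      rw [sum_congr rfl this]
      simp
  have h1 : 1 - pp k n m ≤ ∑ s ∈ range (m + 1), (m.choose s : ℝ) * φ s := by
    have := expect_le_expect (s := univ) fun F _ => hpt F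
    rw [expect_sub_distrib, expect_sum_comm, ← Q_pow_apply] at this
    simp only [hB, sum_powerset_apply_card, card_univ, Fintype.card_fin, nsmul_eq_mul] at this
    simpa [pp] using this
  have h2 : ∑ s ∈ range (m + 1), (m.choose s : ℝ) * φ s ≤ ∑ t ∈ range m, (1 / 4 : ℝ) ^ (t + 1) := by
    rw [sum_range_succ']
    simp only [φ, if_true, mul_zero, add_zero, Nat.succ_ne_zero, if_false, Nat.add_sub_cancel]
    exact sum_le_sum fun t ht => hall_term hk hn hm (by have := mem_range.1 ht; omega)
  have h3 : ∑ t ∈ range m, (1 / 4 : ℝ) ^ (t + 1) ≤ 1 / 3 := by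
    have := geom_sum_Ico_le_of_lt_one (m := 1) (n := m + 1) (x := (1 / 4 : ℝ)) (by norm_num)
      (by norm_num)
    rw [sum_Ico_eq_sum_range] at this
    simp only [Nat.add_sub_cancel, add_comm 1] at this
    linarith
  linarith

end

end Vale.Agent.P170
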