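import Mathlib

/-! Markov operators on sets of assignments and the variance bound for the hitting time. -/

namespace Vale.Agent.P170

open Finset
open scoped BigOperators

noncomputable section

variable {Ω : Type*}

/-- indicator of non-emptiness -/
def u (S : Set Ω) : ℝ := by classical exact if S.Nonempty then 1 else 0

lemma u_pos {S : Set Ω} (h : S.Nonempty) : u S = 1 := by simp [u, h]
lemma u_neg {S : Set Ω} (h : ¬ S.Nonempty) : u S = 0 := by simp [u, h]
@[simp] lemma u_empty : u (∅ : Set Ω) = 0 := u_neg (by simp)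
lemma u_nonneg (S : Set Ω) : 0 ≤ u S := by by_cases h : S.Nonempty <;> simp [u, h]
lemma u_le_one (S : Set Ω) : u S ≤ 1 := by by_cases h : S.Nonempty <;> simp [u, h]
lemma u_le_u {Ω' : Type*} {S : Set Ω} {S' : Set Ω'} (h : S.Nonempty → S'.Nonempty) :
    u S ≤ u S' := by
  by_cases hS : S.Nonempty
  · rw [u_pos hS, u_pos (h hS)]
  · rw [u_neg hS]; exact u_nonneg _
lemma u_mono : Monotone (u : Set Ω → ℝ) := fun _ _ h => u_le_u fun hS => hS.mono h

abbrev Op (Ω : Type*) := Module.End ℝ (Set Ω → ℝ)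

/-- intersect with a uniformly random member of the family `s` -/
def Q {Γ : Type*} [Fintype Γ] (s : Γ → Set Ω) : Op Ω where
  toFun f S := 𝔼 γ, f (S ∩ s γ)
  map_add' f g := by ext S; simp [expect_add_distrib]
  map_smul' c f := by ext S; simp [mul_expect]

lemma Q_apply {Γ : Type*} [Fintype Γ] (s : Γ → Set Ω) (f : Set Ω → ℝ) (S : Set Ω) :
    Q s f S = 𝔼 γ, f (S ∩ s γ) := rfl

/-- positive operators -/
def Pos (A : Op Ω) : Prop := ∀ f : Set Ω → ℝ, 0 ≤ f → 0 ≤ A f

lemma Pos.mono {A : Op Ω} (hA : Pos A) {f g : Set Ω → ℝ} (h : f ≤ g) : A f ≤ A g := by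
  have := hA (g - f) (sub_nonneg.2 h)
  rwa [map_sub, sub_nonneg] at this

lemma Pos.mul {A B : Op Ω} (hA : Pos A) (hB : Pos B) : Pos (A * B) := fun f hf => hA _ (hB f hf)

lemma Pos.pow {A : Op Ω} (hA : Pos A) (m : ℕ) : Pos (A ^ m) := by
  induction m with
  | zero => intro f hf; simpa using hf
  | succ m ih => rw [pow_succ]; exact ih.mul hA

lemma Pos.add {A B : Op Ω} (hA : Pos A) (hB : Pos B) : Pos (A + B) := fun f hf =>
  add_nonneg (hA f hf) (hB f hf)

lemma Pos.smul {A : Op Ω} (hA : Pos A) {c : ℝ} (hc : 0 ≤ c) : Pos (c • A) := fun f hf =>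
  smul_nonneg hc (hA f hf)

section
variable {Γ Γ' : Type*} [Fintype Γ] [Fintype Γ'] (s : Γ → Set Ω) (s' : Γ' → Set Ω)

lemma Q_pos : Pos (Q s) := fun _ hf _ => expect_nonneg fun _ _ => hf _

lemma Q_comm : Commute (Q s) (Q s') := by
  ext f S
  simp only [Module.End.mul_apply, Q_apply]
  rw [expect_comm]
  simp only [Set.inter_right_comm]

lemma Q_const [Nonempty Γ] (c : ℝ) : Q s (fun _ => c) = fun _ => c := by
  ext S; simp [Q_apply]

lemma Q_pow_const [Nonempty Γ] (c : ℝ) (m : ℕ) : (Q s ^ m) (fun _ => c) = fun _ => c := by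
  induction m with
  | zero => simp
  | succ m ih => rw [pow_succ, Module.End.mul_apply, Q_const, ih]

lemma Q_monotone {f : Set Ω → ℝ} (hf : Monotone f) : Monotone (Q s f) := fun _ _ h =>
  expect_le_expect fun _ _ => hf (Set.inter_subset_inter_left _ h)

lemma Q_pow_monotone {f : Set Ω → ℝ} (hf : Monotone f) (m : ℕ) : Monotone ((Q s ^ m) f) := by
  induction m with
  | zero => simpa using hf
  | succ m ih => rw [pow_succ', Module.End.mul_apply]; exact Q_monotone s ih

lemma Q_le_self [Nonempty Γ] {f : Set Ω → ℝ} (hf : Monotone f) : Q s f ≤ f := fun _ =>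
  expect_le univ_nonempty fun _ _ => hf Set.inter_subset_left

lemma Q_pow_empty [Nonempty Γ] (f : Set Ω → ℝ) (m : ℕ) : (Q s ^ m) f ∅ = f ∅ := by
  induction m with
  | zero => simp
  | succ m ih => rw [pow_succ', Module.End.mul_apply, Q_apply]; simp [ih]

lemma Q_pow_apply (f : Set Ω → ℝ) (m : ℕ) (S : Set Ω) :
    (Q s ^ m) f S = 𝔼 F : Fin m → Γ, f (S ∩ ⋂ i, s (F i)) := by
  induction m generalizing S with
  | zero => simp
  | succ m ih =>
    rw [pow_succ', Module.End.mul_apply, Q_apply]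
    simp only [ih]
    rw [← expect_product', univ_product_univ]
    refine Fintype.expect_equiv (Fin.consEquiv fun _ => Γ) _ _ ?_
    rintro ⟨γ, F⟩
    congr 1
    ext x
    simp [Fin.consEquiv, Fin.forall_fin_succ, and_assoc]

lemma Q_pow_u_nonneg (m : ℕ) (S : Set Ω) : 0 ≤ (Q s ^ m) u S :=
  (Q_pos s).pow m u u_nonneg S

lemma Q_pow_u_le_one [Nonempty Γ] (m : ℕ) (S : Set Ω) : (Q s ^ m) u S ≤ 1 := by
  have := ((Q_pos s).pow m).mono (f := u) (g := fun _ => 1) u_le_one S
  rwa [Q_pow_const] at this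

lemma Q_pow_u_anti [Nonempty Γ] (S : Set Ω) : Antitone fun m => (Q s ^ m) u S :=
  antitone_nat_of_succ_le fun m => by
    rw [pow_succ', Module.End.mul_apply]
    exact Q_le_self s (Q_pow_monotone s u_mono m) S

end

/-! ### clauses -/

variable {Λ : Type*} [Fintype Λ]

/-- the clause with literals `c j` -/
def clause (ℓ : Λ → Set Ω) (k : ℕ) (c : Fin k → Λ) : Set Ω := ⋃ j, ℓ (c j)

/-- fraction of literals that are false on all of `S` -/
def beta (ℓ : Λ → Set Ω) (S : Set Ω) : ℝ := 𝔼 l, (1 - u (S ∩ ℓ l))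

lemma beta_nonneg (ℓ : Λ → Set Ω) (S : Set Ω) : 0 ≤ beta ℓ S :=
  expect_nonneg fun _ _ => sub_nonneg.2 (u_le_one _)

lemma beta_le_one [Nonempty Λ] (ℓ : Λ → Set Ω) (S : Set Ω) : beta ℓ S ≤ 1 :=
  expect_le univ_nonempty fun _ _ => by linarith [u_nonneg (S ∩ ℓ ‹_›)]

omit [Fintype Λ] in
lemma one_sub_u_clause (ℓ : Λ → Set Ω) (k : ℕ) (c : Fin k → Λ) (S : Set Ω) :
    1 - u (S ∩ clause ℓ k c) = ∏ j, (1 - u (S ∩ ℓ (c j))) := by
  by_cases h : (S ∩ clause ℓ k c).Nonempty
  · rw [u_pos h]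
    obtain ⟨x, hx, hc⟩ := h
    obtain ⟨j, hj⟩ := Set.mem_iUnion.1 hc
    rw [prod_eq_zero (mem_univ j)]
    · simp
    · rw [u_pos (S := S ∩ ℓ (c j)) ⟨x, hx, hj⟩]; simp
  · rw [u_neg h, prod_eq_one]
    · simp
    · intro j _
      rw [u_neg]
      · simp
      · exact fun ⟨x, hx, hj⟩ => h ⟨x, hx, Set.mem_iUnion.2 ⟨j, hj⟩⟩

lemma Q_clause_u [Nonempty Λ] (ℓ : Λ → Set Ω) (k : ℕ) (S : Set Ω) :
    Q (clause ℓ k) u S = 1 - beta ℓ S ^ k := by
  classical
  have : 𝔼 c : Fin k → Λ, (1 - u (S ∩ clause ℓ k c)) = beta ℓ S ^ k := by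
    simp only [one_sub_u_clause, beta]
    rw [expect_pow, Fintype.piFinset_univ]
  rw [← this, expect_sub_distrib, Q_apply]
  simp

lemma beta_of_empty [Nonempty Λ] (ℓ : Λ → Set Ω) {S : Set Ω} (h : ¬ S.Nonempty) :
    beta ℓ S = 1 := by
  rw [Set.not_nonempty_iff_eq_empty.1 h]; simp [beta]

/-! ### expected survival time and its variance -/

/-- expected survival time -/
def Vv (A : Op Ω) (r : ℕ) : Set Ω → ℝ := ∑ m ∈ range r, (A ^ m) u

/-- second moment of the survival time -/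
def Ww (A : Op Ω) (r : ℕ) : Set Ω → ℝ := ∑ m ∈ range r, (2 * m + 1 : ℝ) • (A ^ m) u

/-- variance of the survival time -/
def Var (A : Op Ω) (r : ℕ) : Set Ω → ℝ := fun S => Ww A r S - Vv A r S ^ 2

lemma Vv_succ (A : Op Ω) (r : ℕ) : Vv A (r + 1) = u + A (Vv A r) := by
  rw [Vv, sum_range_succ', Vv, map_sum, add_comm]
  simp [pow_succ']

lemma Ww_succ (A : Op Ω) (r : ℕ) : Ww A (r + 1) = u + A (Ww A r) + (2 : ℝ) • A (Vv A r) := by
  rw [Ww, sum_range_succ', Ww, Vv, map_sum, map_sum, smul_sum, add_assoc, ← sum_add_distrib,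
    add_comm]
  simp only [pow_succ', Module.End.mul_apply, map_smul]
  congr 1
  · simp
  · refine sum_congr rfl fun m _ => ?_
    rw [← add_smul]; congr 1; push_cast; ring

section
variable {Γ : Type*} [Fintype Γ] [Nonempty Γ] (s : Γ → Set Ω)

omit [Nonempty Γ] in
lemma Vv_monotone (r : ℕ) : Monotone (Vv (Q s) r) := fun S S' h => by
  simp only [Vv, Finset.sum_apply]
  exact sum_le_sum fun m _ => Q_pow_monotone s u_mono m h

lemma Vv_empty (r : ℕ) : Vv (Q s) r ∅ = 0 := by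
  simp [Vv, Finset.sum_apply, Q_pow_empty]

lemma Var_succ_le (r : ℕ) (S : Set Ω) :
    Var (Q s) (r + 1) S ≤ Q s (Var (Q s) r) S +
      𝔼 γ, (Vv (Q s) r S - Vv (Q s) r (S ∩ s γ)) ^ 2 := by
  have h1 : Q s (Var (Q s) r) S = Q s (Ww (Q s) r) S - 𝔼 γ, Vv (Q s) r (S ∩ s γ) ^ 2 := by
    simp only [Q_apply, Var, expect_sub_distrib]
  have h2 : 𝔼 γ, (Vv (Q s) r S - Vv (Q s) r (S ∩ s γ)) ^ 2 =
      Vv (Q s) r S ^ 2 - 2 * Vv (Q s) r S * Q s (Vv (Q s) r) S +
        𝔼 γ, Vv (Q s) r (S ∩ s γ) ^ 2 := by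
    simp only [sub_sq, expect_add_distrib, expect_sub_distrib, Q_apply, mul_expect]
    simp
  have h3 : (1 - u S) * Q s (Vv (Q s) r) S = 0 := by
    by_cases h : S.Nonempty
    · simp [u_pos h]
    · rw [Set.not_nonempty_iff_eq_empty.1 h]; simp [Q_apply, Vv_empty]
  have h4 : u S ^ 2 = u S := by by_cases h : S.Nonempty <;> simp [u, h]
  rw [h1, h2, Var, Ww_succ, Vv_succ]
  simp only [Pi.add_apply, Pi.smul_apply, smul_eq_mul]
  nlinarith [sq_nonneg (Vv (Q s) r S - Q s (Vv (Q s) r) S)]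

/-- the lower bound on the variance in terms of the survival probabilities -/
lemma window_le_Var (S : Set Ω) (a t : ℕ) :
    (t : ℝ) ^ 2 * (Q s ^ (a + t)) u S * (1 - (Q s ^ a) u S) ≤ Var (Q s) (a + t) S := by
  set p : ℕ → ℝ := fun m => (Q s ^ m) u S with hp
  have p0 : ∀ m, 0 ≤ p m := fun m => Q_pow_u_nonneg s m S
  have p1 : ∀ m, p m ≤ 1 := fun m => Q_pow_u_le_one s m S
  have pa : Antitone p := Q_pow_u_anti s S
  have hrec : ∀ M, Var (Q s) (M + 1) S =
      Var (Q s) M S + p M * ((1 - p M) + 2 * ∑ i ∈ range M, (1 - p i)) := by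
    intro M
    simp only [Var, Ww, Vv, Finset.sum_apply, sum_range_succ, Pi.smul_apply, smul_eq_mul,
      sum_sub_distrib, sum_const, card_range, nsmul_eq_mul, hp]
    ring
  have hsum : ∀ M, 0 ≤ ∑ i ∈ range M, (1 - p i) := fun M =>
    sum_nonneg fun i _ => sub_nonneg.2 (p1 i)
  have hnn : ∀ M, 0 ≤ Var (Q s) M S := by
    intro M
    induction M with
    | zero => simp [Var, Ww, Vv]
    | succ M ih =>
      rw [hrec]
      have := mul_nonneg (p0 M) (add_nonneg (sub_nonneg.2 (p1 M))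
        (mul_nonneg (by norm_num : (0 : ℝ) ≤ 2) (hsum M)))
      linarith
  change (t : ℝ) ^ 2 * p (a + t) * (1 - p a) ≤ _
  induction t with
  | zero => simpa using hnn a
  | succ t ih =>
    rw [← add_assoc, hrec]
    have h1 : (t : ℝ) * (1 - p a) ≤ ∑ i ∈ range (a + t), (1 - p i) := by
      rw [sum_range_add]
      have : ∑ _i ∈ range t, (1 - p a) ≤ ∑ i ∈ range t, (1 - p (a + i)) :=
        sum_le_sum fun i _ => by linarith [pa (Nat.le_add_right a i)]
      simp only [sum_const, card_range, nsmul_eq_mul] at this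
      linarith [hsum a]
    have h2 : 1 - p a ≤ 1 - p (a + t) := by linarith [pa (Nat.le_add_right a t)]
    have h3 : p (a + t + 1) ≤ p (a + t) := pa (Nat.le_succ _)
    have h4 : 0 ≤ 1 - p a := sub_nonneg.2 (p1 a)
    have h5 : p (a + t) * ((1 - p a) + 2 * (t * (1 - p a))) ≤
        p (a + t) * ((1 - p (a + t)) + 2 * ∑ i ∈ range (a + t), (1 - p i)) :=
      mul_le_mul_of_nonneg_left (by linarith) (p0 _)
    have h6 : ((t : ℝ) + 1) ^ 2 * p (a + t + 1) * (1 - p a) ≤
        ((t : ℝ) + 1) ^ 2 * p (a + t) * (1 - p a) :=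
      mul_le_mul_of_nonneg_right (mul_le_mul_of_nonneg_left h3 (by positivity)) h4
    push_cast
    nlinarith

end

/-- `Vv - B Vv` for a commuting operator `B` -/
lemma Vv_sub (A B : Op Ω) (h : Commute A B) (r : ℕ) :
    Vv A r - B (Vv A r) = ∑ m ∈ range r, (A ^ m) (u - B u) := by
  rw [Vv, map_sum, ← sum_sub_distrib]
  refine sum_congr rfl fun m _ => ?_
  rw [map_sub, ← Module.End.mul_apply, ← Module.End.mul_apply, (h.pow_left m).eq]

variable [Nonempty Λ]

/-- hazard bound: the expected shift caused by one extra clause of width `k` -/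
lemma hazard (ℓ : Λ → Set Ω) {k : ℕ} (hk : 2 ≤ k) {lam : ℝ} (h0 : 0 < lam) (h1 : lam ≤ 1)
    (r : ℕ) (S : Set Ω) :
    (∑ m ∈ range r, (Q (clause ℓ (k + 1)) ^ m) (u - Q (clause ℓ k) u)) S ≤
      r * lam ^ 2 + 1 / lam := by
  set A := Q (clause ℓ (k + 1)) with hA
  have hpt : u - Q (clause ℓ k) u ≤ (fun _ => lam ^ 2) + (1 / lam) • (u - A u) := by
    intro S
    simp only [Pi.sub_apply, Pi.add_apply, Pi.smul_apply, smul_eq_mul, hA, Q_clause_u]
    by_cases h : S.Nonempty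
    · rw [u_pos h]
      have b0 := beta_nonneg ℓ S
      have b1 := beta_le_one ℓ S
      by_cases hb : beta ℓ S ≤ lam
      · have : beta ℓ S ^ k ≤ lam ^ 2 :=
          (pow_le_pow_of_le_one b0 b1 hk).trans (pow_le_pow_left₀ b0 hb 2)
        have : 0 ≤ 1 / lam * beta ℓ S ^ (k + 1) := by positivity
        linarith
      · push Not at hb
        have : beta ℓ S ^ k ≤ 1 / lam * beta ℓ S ^ (k + 1) := by
          rw [pow_succ, one_div, mul_comm, mul_assoc]
          refine le_mul_of_one_le_right (by positivity) ?_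
          rw [← div_eq_mul_inv, le_div_iff₀ h0]; linarith
        have : 0 ≤ lam ^ 2 := by positivity
        linarith
    · rw [u_neg h, beta_of_empty ℓ h]
      simp; positivity
  have htel : ∑ m ∈ range r, (A ^ m) (u - A u) = u - (A ^ r) u := by
    have := sum_range_sub' (fun m => (A ^ m) u) r
    simp only [pow_zero, Module.End.one_apply] at this
    rw [← this]
    exact sum_congr rfl fun m _ => by rw [map_sub, pow_succ, Module.End.mul_apply]
  have hle : ∑ m ∈ range r, (A ^ m) (u - Q (clause ℓ k) u) ≤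
      ∑ m ∈ range r, ((fun _ => lam ^ 2) + (1 / lam) • (A ^ m) (u - A u)) := by
    refine sum_le_sum fun m _ => ?_
    have := ((Q_pos (clause ℓ (k + 1))).pow m).mono hpt
    rwa [map_add, map_smul, Q_pow_const] at this
  refine (hle S).trans ?_
  rw [sum_add_distrib, ← smul_sum, htel]
  simp only [Pi.add_apply, sum_const, card_range, nsmul_eq_mul, Pi.smul_apply,
    Pi.sub_apply, smul_eq_mul, Pi.mul_apply, Pi.natCast_apply]
  have := u_le_one S
  have := Q_pow_u_nonneg (clause ℓ (k + 1)) r S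
  have : 1 / lam * (u S - (A ^ r) u S) ≤ 1 / lam * 1 :=
    mul_le_mul_of_nonneg_left (by linarith) (by positivity)
  linarith

/-- the squared shift caused by a `(k+1)`-clause is at most (shift by a literal) times
(shift by a `k`-clause) -/
lemma sq_shift_le (ℓ : Λ → Set Ω) (k : ℕ) {f : Set Ω → ℝ} (hf : Monotone f) (S : Set Ω) :
    𝔼 c : Fin (k + 1) → Λ, (f S - f (S ∩ clause ℓ (k + 1) c)) ^ 2 ≤
      (f S - Q ℓ f S) * (f S - Q (clause ℓ k) f S) := by
  have e1 : f S - Q ℓ f S = 𝔼 l, (f S - f (S ∩ ℓ l)) := by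
    rw [expect_sub_distrib, Q_apply]; simp
  have e2 : f S - Q (clause ℓ k) f S = 𝔼 c, (f S - f (S ∩ clause ℓ k c)) := by
    rw [expect_sub_distrib, Q_apply]; simp
  rw [e1, e2, expect_mul_expect, ← expect_product', univ_product_univ,
    ← Fintype.expect_equiv (Fin.consEquiv fun _ => Λ)
      (fun x => (f S - f (S ∩ clause ℓ (k + 1) (Fin.cons x.1 x.2))) ^ 2) _ (fun _ => rfl)]
  refine expect_le_expect ?_
  rintro ⟨l, c⟩ _
  have h0 : 0 ≤ f S - f (S ∩ clause ℓ (k + 1) (Fin.cons l c)) :=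
    sub_nonneg.2 (hf Set.inter_subset_left)
  have h1 : f (S ∩ ℓ l) ≤ f (S ∩ clause ℓ (k + 1) (Fin.cons l c)) :=
    hf (Set.inter_subset_inter_right _ fun x hx => Set.mem_iUnion.2 ⟨0, by simpa using hx⟩)
  have h2 : f (S ∩ clause ℓ k c) ≤ f (S ∩ clause ℓ (k + 1) (Fin.cons l c)) :=
    hf (Set.inter_subset_inter_right _ fun x hx => by
      obtain ⟨j, hj⟩ := Set.mem_iUnion.1 hx
      exact Set.mem_iUnion.2 ⟨j.succ, by simpa using hj⟩)
  rw [sq]
  exact mul_le_mul (by linarith) (by linarith) h0 (by linarith)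

/-- the variance bound in terms of the unit-clause shift -/
lemma Var_le (ℓ : Λ → Set Ω) {k : ℕ} (hk : 2 ≤ k) {lam : ℝ} (h0 : 0 < lam) (h1 : lam ≤ 1)
    (M : ℕ) (S : Set Ω) :
    Var (Q (clause ℓ (k + 1))) M S ≤ M * (M * lam ^ 2 + 1 / lam) *
      (Vv (Q (clause ℓ (k + 1))) M S - Q ℓ (Vv (Q (clause ℓ (k + 1))) M) S) := by
  set A := Q (clause ℓ (k + 1)) with hA
  set h : ℝ := M * lam ^ 2 + 1 / lam with hh
  have hpos : 0 ≤ h := by positivity
  have hA' : Pos A := Q_pos _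
  have hK0 : 0 ≤ u - Q ℓ u := sub_nonneg.2 (Q_le_self ℓ u_mono)
  set K : ℝ := Vv A M S - Q ℓ (Vv A M) S with hK
  have hKe : K = ∑ m ∈ range M, (A ^ m) (u - Q ℓ u) S := by
    have := congrFun (Vv_sub A (Q ℓ) (Q_comm _ _) M) S
    simpa [Finset.sum_apply] using this
  have step : ∀ r, r ≤ M → Var A (r + 1) ≤ A (Var A r) + h • (Vv A r - Q ℓ (Vv A r)) := by
    intro r hr S
    refine (Var_succ_le _ r S).trans ?_
    simp only [Pi.add_apply, Pi.smul_apply, Pi.sub_apply, smul_eq_mul]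
    have h2 := sq_shift_le ℓ k (Vv_monotone (clause ℓ (k + 1)) r) S
    have h3 : Vv A r S - Q (clause ℓ k) (Vv A r) S ≤ h := by
      have := congrFun (Vv_sub A (Q (clause ℓ k)) (Q_comm _ _) r) S
      rw [Pi.sub_apply] at this
      rw [this]
      refine (hazard ℓ hk h0 h1 r S).trans ?_
      have : (r : ℝ) * lam ^ 2 ≤ M * lam ^ 2 :=
        mul_le_mul_of_nonneg_right (by exact_mod_cast hr) (by positivity)
      linarith
    have h4 : 0 ≤ Vv A r S - Q ℓ (Vv A r) S :=
      sub_nonneg.2 (Q_le_self ℓ (Vv_monotone _ r) S)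
    have := mul_le_mul_of_nonneg_left h3 h4
    linarith
  have main : ∀ r i, i + r ≤ M → (A ^ i) (Var A r) S ≤ r * h * K := by
    intro r
    induction r with
    | zero =>
      intro i _
      have : Var A 0 = 0 := by ext S; simp [Var, Ww, Vv]
      simp [this]
    | succ r ih =>
      intro i hi
      have h1 := (hA'.pow i).mono (step r (by omega)) S
      rw [map_add, map_smul, ← Module.End.mul_apply, ← pow_succ] at h1
      have h2 := ih (i + 1) (by omega)
      have h3 : (A ^ i) (Vv A r - Q ℓ (Vv A r)) S ≤ K := by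
        rw [Vv_sub A (Q ℓ) (Q_comm _ _), map_sum, hKe, Finset.sum_apply]
        obtain ⟨t, ht⟩ : ∃ t, M = i + r + t := ⟨M - (i + r), by omega⟩
        rw [ht, sum_range_add, sum_range_add]
        have n1 : 0 ≤ ∑ m ∈ range i, (A ^ m) (u - Q ℓ u) S :=
          sum_nonneg fun m _ => hA'.pow m _ hK0 S
        have n2 : 0 ≤ ∑ m ∈ range t, (A ^ (i + r + m)) (u - Q ℓ u) S :=
          sum_nonneg fun m _ => hA'.pow _ _ hK0 S
        have e : ∑ m ∈ range r, (A ^ i) ((A ^ m) (u - Q ℓ u)) S =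
            ∑ m ∈ range r, (A ^ (i + m)) (u - Q ℓ u) S :=
          sum_congr rfl fun m _ => by rw [pow_add, Module.End.mul_apply]
        linarith
      simp only [Pi.add_apply, Pi.smul_apply, smul_eq_mul] at h1
      have := mul_le_mul_of_nonneg_left h3 hpos
      push_cast
      linarith
  simpa using main M 0 (by omega)

end

end Vale.Agent.P170
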