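import Vale.Agent.P170.Op

/-! The i.i.d. literal model: window bound, interpolation, first moment. -/

namespace Vale.Agent.P170

open Finset
open scoped BigOperators

noncomputable section

/-- assignments making a literal true -/
def lit (n : ℕ) (l : Fin n × Bool) : Set (Fin n → Bool) := {σ | σ l.1 = l.2}

/-- probability that `m` clauses of `k` i.i.d. uniform literals on `n` variables are satisfiable -/
def pp (k n m : ℕ) : ℝ := (Q (clause (lit n) k) ^ m) u Set.univ

lemma pp_nonneg (k n m : ℕ) : 0 ≤ pp k n m := Q_pow_u_nonneg _ _ _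

lemma pp_le_one (k n m : ℕ) [NeZero n] : pp k n m ≤ 1 := Q_pow_u_le_one _ _ _

lemma pp_anti (k n : ℕ) [NeZero n] : Antitone (pp k n) := Q_pow_u_anti _ _

lemma pp_zero (k n : ℕ) : pp k n 0 = 1 := by simp [pp, u_pos Set.univ_nonempty]

section K
variable {n : ℕ} [NeZero n] (k : ℕ) (x : Fin n) (b : Bool)

/-- delete the clauses containing the negation of the literal `(x, b)` -/
def star (c : Fin k → Fin n × Bool) : Set (Fin n → Bool) :=
  if ∃ j, c j = (x, !b) then Set.univ else clause (lit n) k c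

omit [NeZero n] in
lemma Q_pow_le_star (m : ℕ) (S S' : Set (Fin n → Bool))
    (h : ∀ σ ∈ S, Function.update σ x b ∈ S') :
    (Q (clause (lit n) k) ^ m) u S ≤ (Q (star k x b) ^ m) u S' := by
  induction m generalizing S S' with
  | zero => simpa using u_le_u fun ⟨σ, hσ⟩ => ⟨_, h σ hσ⟩
  | succ m ih =>
    rw [pow_succ', pow_succ', Module.End.mul_apply, Module.End.mul_apply, Q_apply, Q_apply]
    refine expect_le_expect fun c _ => ih _ _ ?_
    rintro σ ⟨hσ, hc⟩
    refine ⟨h σ hσ, ?_⟩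
    unfold star
    split_ifs with hj
    · trivial
    · obtain ⟨j, hj'⟩ := Set.mem_iUnion.1 hc
      refine Set.mem_iUnion.2 ⟨j, ?_⟩
      simp only [lit, Set.mem_ofPred_eq] at hj' ⊢
      by_cases hx : (c j).1 = x
      · rw [hx, Function.update_self]
        by_contra hne
        refine hj ⟨j, Prod.ext hx ?_⟩
        cases b <;> cases h2 : (c j).2 <;> simp_all
      · rw [Function.update_of_ne hx, hj']

lemma star_sub_le (S : Set (Fin n → Bool)) :
    Q (star (k + 1) x b) u S - Q (clause (lit n) (k + 1)) u S ≤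
      (k + 1) / (2 * n) * (u S - Q (clause (lit n) k) u S) := by
  by_cases hS : S.Nonempty
  swap
  · rw [Set.not_nonempty_iff_eq_empty.1 hS]; simp [Q_apply]
  have e1 : u S - Q (clause (lit n) k) u S =
      𝔼 c : Fin k → Fin n × Bool, ∏ i, (1 - u (S ∩ lit n (c i))) := by
    rw [u_pos hS, Q_apply]
    simp only [← one_sub_u_clause, expect_sub_distrib]
    simp
  have e2 : ∀ j : Fin (k + 1), 𝔼 c : Fin (k + 1) → Fin n × Bool,
      (if c j = (x, !b) then (1 : ℝ) else 0) * ∏ i, (1 - u (S ∩ lit n (c (j.succAbove i)))) =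
      1 / (2 * n) * (u S - Q (clause (lit n) k) u S) := by
    intro j
    rw [e1, ← Fintype.expect_equiv (Fin.insertNthEquiv (fun _ => Fin n × Bool) j)
      (fun y => (if y.1 = (x, !b) then (1 : ℝ) else 0) * ∏ i, (1 - u (S ∩ lit n (y.2 i)))) _
      (fun y => by simp [Fin.insertNthEquiv]), ← univ_product_univ,
      expect_product' univ univ (fun (l : Fin n × Bool) (c : Fin k → Fin n × Bool) =>
        (if l = (x, !b) then (1 : ℝ) else 0) * ∏ i, (1 - u (S ∩ lit n (c i)))),
      ← expect_mul_expect]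
    congr 1
    rw [Fintype.expect_eq_sum_div_card]
    simp [mul_comm]
  have e3 : ((k : ℝ) + 1) / (2 * n) * (u S - Q (clause (lit n) k) u S) =
      𝔼 c : Fin (k + 1) → Fin n × Bool, ∑ j : Fin (k + 1),
      (if c j = (x, !b) then (1 : ℝ) else 0) * ∏ i, (1 - u (S ∩ lit n (c (j.succAbove i)))) := by
    rw [expect_sum_comm]
    simp only [e2, sum_const, card_univ, Fintype.card_fin, nsmul_eq_mul]
    push_cast; ring
  rw [e3, Q_apply, Q_apply, ← expect_sub_distrib]
  refine expect_le_expect fun c _ => ?_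
  have hnn : ∀ j : Fin (k + 1), 0 ≤ (if c j = (x, !b) then (1 : ℝ) else 0) *
      ∏ i, (1 - u (S ∩ lit n (c (j.succAbove i)))) := fun j =>
    mul_nonneg (by split_ifs <;> simp) (prod_nonneg fun i _ => sub_nonneg.2 (u_le_one _))
  unfold star
  split_ifs with hj
  · obtain ⟨j, hj⟩ := hj
    refine le_trans ?_ (single_le_sum (fun j _ => hnn j) (mem_univ j))
    rw [Set.inter_univ, u_pos hS, one_sub_u_clause, Fin.prod_univ_succAbove _ j, if_pos hj]
    refine mul_le_mul_of_nonneg_right ?_ (prod_nonneg fun i _ => sub_nonneg.2 (u_le_one _))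
    linarith [u_nonneg (S ∩ lit n (c j))]
  · rw [sub_self]; exact sum_nonneg fun j _ => hnn j

lemma Vv_star_le {k : ℕ} (hk : 2 ≤ k) {lam : ℝ} (h0 : 0 < lam) (h1 : lam ≤ 1) (M : ℕ)
    (r : ℕ) (hr : r ≤ M) :
    Vv (Q (star (k + 1) x b)) r - Vv (Q (clause (lit n) (k + 1))) r ≤
      fun _ => r * ((k + 1) / (2 * n) * (M * lam ^ 2 + 1 / lam)) := by
  set A := Q (star (k + 1) x b) with hA
  set B := Q (clause (lit n) (k + 1)) with hB
  induction r with
  | zero => intro S; simp [Vv]
  | succ r ih =>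
    have ih := ih (by omega)
    have e : Vv A (r + 1) - Vv B (r + 1) =
        A (Vv A r - Vv B r) + ∑ m ∈ range r, (B ^ m) (A u - B u) := by
      rw [Vv_succ, Vv_succ, map_sub]
      have e1 := Vv_sub B A (Q_comm _ _) r
      have e2 := Vv_sub B B (Commute.refl _) r
      have e3 : ∑ m ∈ range r, (B ^ m) (A u - B u) =
          ∑ m ∈ range r, (B ^ m) (u - B u) - ∑ m ∈ range r, (B ^ m) (u - A u) := by
        rw [← sum_sub_distrib]
        exact sum_congr rfl fun m _ => by rw [← map_sub]; congr 1; abel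
      rw [e3, ← e1, ← e2]; abel
    rw [e]
    have h2 := (Q_pos (star (k + 1) x b)).mono ih
    rw [Q_const] at h2
    have h3 : ∑ m ∈ range r, (B ^ m) (A u - B u) ≤
        ∑ m ∈ range r, (((k : ℝ) + 1) / (2 * n)) • (B ^ m) (u - Q (clause (lit n) k) u) := by
      refine sum_le_sum fun m _ => ?_
      rw [← map_smul]
      exact ((Q_pos _).pow m).mono fun S => star_sub_le k x b S
    intro S
    have h4 := h3 S
    rw [← smul_sum, Pi.smul_apply, smul_eq_mul] at h4
    have h5 := hazard (lit n) hk h0 h1 r S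
    have h6 : (r : ℝ) * lam ^ 2 ≤ M * lam ^ 2 :=
      mul_le_mul_of_nonneg_right (by exact_mod_cast (by omega : r ≤ M)) (by positivity)
    have h7 : (0 : ℝ) ≤ ((k : ℝ) + 1) / (2 * n) := by positivity
    have h8 := mul_le_mul_of_nonneg_left (h5.trans (add_le_add_left h6 (1 / lam))) h7
    have h9 := h2 S
    simp only [Pi.add_apply]
    push_cast
    linarith

end K

/-- the window bound -/
theorem window {k n : ℕ} [NeZero n] (hk : 3 ≤ k) {lam : ℝ} (h0 : 0 < lam) (h1 : lam ≤ 1)
    (a t : ℕ) : (t : ℝ) ^ 2 * pp k n (a + t) * (1 - pp k n a) ≤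
      k / (2 * n) * ((a + t : ℕ) : ℝ) ^ 2 * (((a + t : ℕ) : ℝ) * lam ^ 2 + 1 / lam) ^ 2 := by
  obtain ⟨k, rfl⟩ : ∃ k', k = k' + 1 := ⟨k - 1, by omega⟩
  have hk' : 2 ≤ k := by omega
  refine (window_le_Var _ Set.univ a t).trans ((Var_le (lit n) hk' h0 h1 (a + t) _).trans ?_)
  set M := a + t
  set h : ℝ := M * lam ^ 2 + 1 / lam with hh
  have hpos : 0 ≤ h := by positivity
  have hK : Vv (Q (clause (lit n) (k + 1))) M Set.univ -
      Q (lit n) (Vv (Q (clause (lit n) (k + 1))) M) Set.univ ≤ M * ((k + 1) / (2 * n) * h) := by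
    rw [Q_apply, sub_le_comm]
    refine le_expect univ_nonempty ?_
    rintro ⟨x, b⟩ _
    have h1 := Vv_star_le x b hk' h0 h1 M M le_rfl (lit n (x, b))
    have h2 : Vv (Q (clause (lit n) (k + 1))) M Set.univ ≤
        Vv (Q (star (k + 1) x b)) M (lit n (x, b)) := by
      simp only [Vv, Finset.sum_apply]
      exact sum_le_sum fun m _ => Q_pow_le_star _ x b m _ _ fun σ _ => by simp [lit]
    simp only [Pi.sub_apply, Set.univ_inter] at h1 ⊢
    linarith
  calc _ ≤ (M : ℝ) * h * (M * ((k + 1) / (2 * n) * h)) :=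
        mul_le_mul_of_nonneg_left hK (by positivity)
    _ = _ := by push_cast; ring

/-! ### first moment -/

theorem first_moment (k n m : ℕ) [NeZero n] : pp k n m ≤ 2 ^ n * (1 - (1 / 2) ^ k) ^ m := by
  classical
  set A := Q (clause (lit n) k) with hA
  let g : (Fin n → Bool) → Set (Fin n → Bool) → ℝ := fun σ S => u (S ∩ {σ})
  have hb : ∀ σ : Fin n → Bool, beta (lit n) {σ} = 1 / 2 := by
    intro σ
    rw [beta, ← univ_product_univ, expect_product]
    have : ∀ x : Fin n, 𝔼 b : Bool, (1 - u ({σ} ∩ lit n (x, b))) = 1 / 2 := by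
      intro x
      rw [Fintype.expect_eq_sum_div_card, Fintype.sum_bool]
      cases h : σ x
      · rw [u_neg (S := {σ} ∩ lit n (x, true)) (by simp [lit, h]),
          u_pos (S := {σ} ∩ lit n (x, false)) (by simp [lit, h])]
        simp
      · rw [u_pos (S := {σ} ∩ lit n (x, true)) (by simp [lit, h]),
          u_neg (S := {σ} ∩ lit n (x, false)) (by simp [lit, h])]
        simp
    simp only [this]
    simp
  have hg : ∀ σ, A (g σ) = (1 - (1 / 2 : ℝ) ^ k) • g σ := by
    intro σ
    ext S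
    by_cases h : σ ∈ S
    · have e : S ∩ {σ} = {σ} := Set.inter_eq_right.2 (by simpa using h)
      have := Q_clause_u (lit n) k {σ}
      rw [hb, Q_apply] at this
      simp only [hA, Q_apply, g, Pi.smul_apply, e, smul_eq_mul, u_pos (Set.singleton_nonempty σ),
        mul_one, ← this]
      refine expect_congr rfl fun c _ => ?_
      rw [Set.inter_right_comm, e]
    · have e : S ∩ {σ} = ∅ := by simpa using h
      simp only [hA, Q_apply, g, Pi.smul_apply, e, smul_eq_mul, u_empty, mul_zero]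
      refine expect_eq_zero fun c _ => ?_
      rw [Set.inter_right_comm, e]; simp
  have hgm : ∀ σ m, (A ^ m) (g σ) = (1 - (1 / 2 : ℝ) ^ k) ^ m • g σ := by
    intro σ m
    induction m with
    | zero => simp
    | succ m ih => rw [pow_succ', Module.End.mul_apply, ih, map_smul, hg, smul_smul, pow_succ]
  have hu : (u : Set (Fin n → Bool) → ℝ) ≤ ∑ σ, g σ := by
    intro S
    rw [Finset.sum_apply]
    by_cases h : S.Nonempty
    · obtain ⟨σ, hσ⟩ := h
      refine le_trans ?_ (single_le_sum (f := fun σ => g σ S) (fun _ _ => u_nonneg _) (mem_univ σ))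
      exact u_le_u fun _ => ⟨σ, hσ, rfl⟩
    · rw [u_neg h]; exact sum_nonneg fun _ _ => u_nonneg _
  have := ((Q_pos (clause (lit n) k)).pow m).mono hu Set.univ
  rw [map_sum, Finset.sum_apply] at this
  refine this.trans (le_of_eq ?_)
  simp [← hA, hgm, g, u_pos (Set.singleton_nonempty _)]

/-! ### interpolation -/

section Interp
variable (k n1 n2 : ℕ) [NeZero n1] [NeZero n2]

/-- literals of the first block -/
def lit1 (l : Fin n1 × Bool) : Set (Fin (n1 + n2) → Bool) := lit (n1 + n2) (Fin.castAdd n2 l.1, l.2)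
/-- literals of the second block -/
def lit2 (l : Fin n2 × Bool) : Set (Fin (n1 + n2) → Bool) := lit (n1 + n2) (Fin.natAdd n1 l.1, l.2)

/-- product of two sets of assignments -/
def bx (S1 : Set (Fin n1 → Bool)) (S2 : Set (Fin n2 → Bool)) : Set (Fin (n1 + n2) → Bool) :=
  {σ | (fun x => σ (Fin.castAdd n2 x)) ∈ S1 ∧ (fun x => σ (Fin.natAdd n1 x)) ∈ S2}

omit [NeZero n1] [NeZero n2] in
lemma u_bx (S1 : Set (Fin n1 → Bool)) (S2 : Set (Fin n2 → Bool)) :
    u (bx n1 n2 S1 S2) = u S1 * u S2 := by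
  by_cases h1 : S1.Nonempty
  · by_cases h2 : S2.Nonempty
    · rw [u_pos h1, u_pos h2, u_pos, mul_one]
      obtain ⟨a, ha⟩ := h1
      obtain ⟨b, hb⟩ := h2
      exact ⟨Fin.append a b, by simpa using ha, by simpa using hb⟩
    · rw [u_neg h2, u_neg, mul_zero]
      exact fun ⟨σ, _, h⟩ => h2 ⟨_, h⟩
  · rw [u_neg h1, u_neg, zero_mul]
    exact fun ⟨σ, h, _⟩ => h1 ⟨_, h⟩

omit [NeZero n1] [NeZero n2] in
lemma Q_block (a b : ℕ) (S1 : Set (Fin n1 → Bool)) (S2 : Set (Fin n2 → Bool)) :
    (Q (clause (lit1 n1 n2) k) ^ a * Q (clause (lit2 n1 n2) k) ^ b) u (bx n1 n2 S1 S2) =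
      (Q (clause (lit n1) k) ^ a) u S1 * (Q (clause (lit n2) k) ^ b) u S2 := by
  induction a generalizing S1 with
  | zero =>
    simp only [pow_zero, one_mul, Module.End.one_apply]
    induction b generalizing S2 with
    | zero => simpa using u_bx n1 n2 S1 S2
    | succ b ih =>
      rw [pow_succ', pow_succ', Module.End.mul_apply, Module.End.mul_apply, Q_apply, Q_apply,
        mul_expect]
      refine expect_congr rfl fun c _ => ?_
      rw [← ih]
      refine congrArg _ ?_
      ext σ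
      simp [bx, clause, lit2, lit, and_assoc]
  | succ a ih =>
    rw [pow_succ', pow_succ', mul_assoc, Module.End.mul_apply, Module.End.mul_apply (Q _), Q_apply,
      Q_apply, expect_mul]
    refine expect_congr rfl fun c _ => ?_
    rw [← ih]
    refine congrArg _ ?_
    ext σ
    simp [bx, clause, lit1, lit, and_right_comm]

lemma beta_split (S : Set (Fin (n1 + n2) → Bool)) :
    beta (lit (n1 + n2)) S = (n1 / (n1 + n2) : ℝ) * beta (lit1 n1 n2) S +
      (n2 / (n1 + n2) : ℝ) * beta (lit2 n1 n2) S := by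
  have h1 : (n1 : ℝ) ≠ 0 := by exact_mod_cast NeZero.ne n1
  have h2 : (n2 : ℝ) ≠ 0 := by exact_mod_cast NeZero.ne n2
  have h3 : (n1 : ℝ) + n2 ≠ 0 := by positivity
  simp only [beta, Fintype.expect_eq_sum_div_card, Fintype.sum_prod_type, Fin.sum_univ_add,
    Fintype.card_prod, Fintype.card_fin, Fintype.card_bool, lit1, lit2]
  push_cast
  field_simp

theorem interpolation (m : ℕ) :
    ∑ j ∈ range (m + 1), (m.choose j : ℝ) * (n1 / (n1 + n2) : ℝ) ^ j *
      (n2 / (n1 + n2) : ℝ) ^ (m - j) * (pp k n1 j * pp k n2 (m - j)) ≤ pp k (n1 + n2) m := by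
  have h1 : (0 : ℝ) < n1 := by exact_mod_cast NeZero.pos n1
  have h2 : (0 : ℝ) < n2 := by exact_mod_cast NeZero.pos n2
  set ρ1 : ℝ := n1 / (n1 + n2) with hρ1
  set ρ2 : ℝ := n2 / (n1 + n2) with hρ2
  have p1 : 0 ≤ ρ1 := by positivity
  have p2 : 0 ≤ ρ2 := by positivity
  have hs : ρ1 + ρ2 = 1 := by rw [hρ1, hρ2]; field_simp
  set G := Q (clause (lit (n1 + n2)) k) with hG
  set A := Q (clause (lit1 n1 n2) k) with hA
  set B := Q (clause (lit2 n1 n2) k) with hB
  have hP : Pos (ρ1 • A + ρ2 • B) := ((Q_pos _).smul p1).add ((Q_pos _).smul p2)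
  have hc : Commute G (ρ1 • A + ρ2 • B) :=
    ((Q_comm _ _).smul_right _).add_right ((Q_comm _ _).smul_right _)
  have hu : (ρ1 • A + ρ2 • B) u ≤ G u := by
    intro S
    simp only [LinearMap.add_apply, LinearMap.smul_apply, Pi.add_apply, Pi.smul_apply, smul_eq_mul,
      hA, hB, hG, Q_clause_u, beta_split]
    have := (convexOn_pow k).2 (x := beta (lit1 n1 n2) S) (y := beta (lit2 n1 n2) S)
      (beta_nonneg _ _) (beta_nonneg _ _) p1 p2 hs
    simp only [smul_eq_mul] at this
    rw [← hρ1, ← hρ2]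
    nlinarith
  have hm : ∀ m, ((ρ1 • A + ρ2 • B) ^ m) u ≤ (G ^ m) u := by
    intro m
    induction m with
    | zero => simp
    | succ m ih =>
      calc ((ρ1 • A + ρ2 • B) ^ (m + 1)) u = (ρ1 • A + ρ2 • B) (((ρ1 • A + ρ2 • B) ^ m) u) := by
            rw [pow_succ', Module.End.mul_apply]
        _ ≤ (ρ1 • A + ρ2 • B) ((G ^ m) u) := hP.mono ih
        _ = (G ^ m) ((ρ1 • A + ρ2 • B) u) := by
            rw [← Module.End.mul_apply, ← Module.End.mul_apply, (hc.pow_left m).eq]
        _ ≤ (G ^ m) (G u) := ((Q_pos _).pow m).mono hu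
        _ = _ := by rw [pow_succ, Module.End.mul_apply]
  refine le_trans (le_of_eq ?_) (hm m Set.univ)
  have hAB : Commute (ρ1 • A) (ρ2 • B) := ((Q_comm _ _).smul_right _).smul_left _
  rw [hAB.add_pow, LinearMap.sum_apply, Finset.sum_apply]
  refine sum_congr rfl fun j _ => ?_
  have e := Q_block k n1 n2 j (m - j) Set.univ Set.univ
  have e' : bx n1 n2 Set.univ Set.univ = Set.univ := by ext; simp [bx]
  rw [e'] at e
  rw [smul_pow, smul_pow, smul_mul_smul_comm, ← nsmul_eq_mul', ← Nat.cast_smul_eq_nsmul ℝ,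
    smul_smul, LinearMap.smul_apply, Pi.smul_apply, e, smul_eq_mul, pp, pp]
  ring

end Interp

end

end Vale.Agent.P170
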